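import Vale.Agent.P018.R2.H803.Expl

/-! # P018, H803: the exponent `1 + k / (360 d)` for all `2 ≤ k ≤ d`. -/

set_option linter.all false

namespace Vale.Agent.P018.R2.H803

open Finset Vale.Agent.P018.K Vale.Agent.P018.K2 Vale.Agent.P018.H699

theorem adm_of_level (d k r : ℕ) (hr1 : 1 ≤ r) (hrd : r < d) (a : ℝ) (b : ℝ) (hb0 : 0 < b)
    (hb1 : b < a / d) (hs : (r : ℝ) * (a / d) + ((d : ℝ) - r) * b < 1)
    (h : Crit d k r a b) : Adm2 d k a := by
  refine ⟨fun j => if j < r then a / (d : ℝ) else b, ?_, ?_, ?_, ?_, ?_⟩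
  · simp only
    rw [if_pos (by omega)]
  · intro j
    simp only
    split_ifs with h1 h2 h2
    · exact le_rfl
    · omega
    · exact hb1.le
    · exact le_rfl
  · simp only
    rw [if_neg (by omega)]
    exact hb0
  · intro j hj1 hjd hlt
    have h1 : j = r := by
      by_contra hne
      simp only at hlt
      rcases Nat.lt_or_gt_of_ne hne with h2 | h2
      · rw [if_pos (by omega), if_pos (by omega)] at hlt
        exact lt_irrefl _ hlt
      · rw [if_neg (by omega), if_neg (by omega)] at hlt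
        exact lt_irrefl _ hlt
    subst h1
    simp only
    rw [if_neg (by omega)]
    exact h
  · obtain ⟨e, rfl⟩ : ∃ e, d = r + e := ⟨d - r, by omega⟩
    rw [Finset.sum_range_add]
    rw [Finset.sum_congr rfl (g := fun _ => a / ((r + e : ℕ) : ℝ)) (fun j hj => by
      rw [if_pos (Finset.mem_range.1 hj)])]
    rw [Finset.sum_congr (s₁ := range e) rfl (g := fun _ => b) (fun j hj => by
      rw [if_neg (by omega)])]
    rw [Finset.sum_const, Finset.card_range, nsmul_eq_mul, Finset.sum_const, Finset.card_range,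
      nsmul_eq_mul]
    push_cast at hs ⊢
    linarith

theorem E_lt (r : ℕ) : (1 + 1 / (2 * ((r : ℝ) + 1))) ^ (r + 1) < 1.6488 := by
  set x : ℝ := 1 / (2 * ((r : ℝ) + 1)) with hx
  have hx0 : 0 ≤ x := by rw [hx]; positivity
  have h1 : 1 + x ≤ Real.exp x := by linarith [Real.add_one_le_exp x]
  have h2 : ((1 + x) ^ (r + 1)) ^ 2 ≤ Real.exp 1 := by
    rw [← pow_mul]
    calc (1 + x) ^ ((r + 1) * 2) ≤ (Real.exp x) ^ ((r + 1) * 2) :=
          pow_le_pow_left₀ (by linarith) h1 _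
      _ = Real.exp (((r + 1) * 2 : ℕ) * x) := by rw [Real.exp_nat_mul]
      _ ≤ Real.exp 1 := by
        apply Real.exp_le_exp.2
        rw [hx]
        push_cast
        apply le_of_eq
        field_simp
  have h3 := Real.exp_one_lt_d9
  have h4 : 0 ≤ (1 + x) ^ (r + 1) := by positivity
  by_contra h5
  rw [not_lt] at h5
  nlinarith

/-- the indices of the part of `B` with a negative coordinate. -/
def D3 (r k M : ℕ) : Finset (Fin r × ℕ × (Fin r → ℕ)) :=
  ((univ : Finset (Fin r)) ×ˢ (Icc 1 k ×ˢ A r (M + k))).filter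
    fun q => q.2.2 q.1 = 0 ∧ ∑ j, q.2.2 j + 1 ≤ M + q.2.1

theorem D3_sub (r k M : ℕ) : D3 r k M ⊆ D1 r k (M + k) := by
  intro q hq
  unfold D3 at hq
  unfold D1
  rw [mem_filter] at hq ⊢
  exact ⟨hq.1, hq.2.1⟩


theorem E2_lt (r : ℕ) : (1 + 1 / ((r : ℝ) + 1)) ^ (r + 1) < 3 := by
  set x : ℝ := 1 / ((r : ℝ) + 1) with hx
  have hx0 : 0 ≤ x := by rw [hx]; positivity
  have h1 : 1 + x ≤ Real.exp x := by linarith [Real.add_one_le_exp x]
  have h2 : (1 + x) ^ (r + 1) ≤ Real.exp 1 := by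
    calc (1 + x) ^ (r + 1) ≤ (Real.exp x) ^ (r + 1) :=
          pow_le_pow_left₀ (by linarith) h1 _
      _ = Real.exp ((r + 1 : ℕ) * x) := by rw [Real.exp_nat_mul]
      _ ≤ Real.exp 1 := by
        apply Real.exp_le_exp.2
        rw [hx]
        push_cast
        apply le_of_eq
        field_simp
  have h3 := Real.exp_one_lt_d9
  linarith

theorem S_third (r M d M' : ℕ) (b θ : ℝ) (hb : 0 ≤ b) (hθ : 0 ≤ θ) (h : 1 ≤ b * (d + θ))
    (hM' : M + d ≤ M') :
    S r M' b (b * M + 1) ≤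
      b * ((M + d + r).choose (r + 1) : ℕ) + b * θ * ((M' + r).choose r : ℕ) := by
  classical
  have h1 := S_first r (M + d) M' b hb hM'
  have h2 : S r M' b (b * M + 1) ≤ S r M' b (b * (M + d : ℕ)) + b * θ * ((M' + r).choose r : ℕ) := by
    rw [← card_A, card_eq_sum_ones]
    unfold S
    push_cast
    rw [mul_sum, ← sum_add_distrib]
    refine sum_le_sum fun u _ => ?_
    have h3 : 0 ≤ b * θ := mul_nonneg hb hθ
    have h4 := le_max_left (b * ((M : ℝ) + d) - b * ∑ i, (u i : ℝ)) 0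
    have h5 := le_max_right (b * ((M : ℝ) + d) - b * ∑ i, (u i : ℝ)) 0
    apply max_le
    · linarith
    · linarith
  linarith

theorem final_ineq (d s k M : ℕ) (η β θ b w : ℝ) (hd0 : (0 : ℝ) < d) (hM1 : 1 ≤ M)
    (hMr : (M : ℝ) = 2 * (s + 1 + 1) * d) (hη0 : 0 < η) (hη1 : η ≤ 1 / 40) (hβ : β = 1 - η)
    (hβ0 : 0 < β) (hθ0 : 0 ≤ θ) (hβθ' : β * θ = d * η) (hw0 : 0 < w) (hb : b = β * w) (hb0 : 0 < b)
    (hrk : 8 * d ≤ 5 * ((s + 1) * k)) :
    b * ((M + (s + 1)).choose (s + 1 + 1) : ℕ) + (b * ((M + d + (s + 1)).choose (s + 1 + 1) : ℕ) +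
      b * θ * ((M + 2 * d + (s + 1)).choose (s + 1) : ℕ)) <
    2 * (w * (19 / 20 * ((M + (s + 1)).choose (s + 1 + 1) : ℝ))) +
      (s + 1) * (k * (w * (19 / 20 * ((M + s + 1).choose (s + 1) : ℝ)))) := by
  -- the binomial coefficients
  obtain ⟨C0, hC0⟩ : ∃ C0 : ℝ, C0 = ((M + (s + 1)).choose (s + 1) : ℝ) := ⟨_, rfl⟩
  have hC0p : 0 < C0 := by
    rw [hC0]
    exact_mod_cast Nat.choose_pos (by omega)
  have f1 : ((M + (s + 1)).choose (s + 1 + 1) : ℝ) = 2 * d * C0 := by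
    have h1 := Nat.choose_succ_right_eq (M + (s + 1)) (s + 1)
    rw [Nat.add_sub_cancel] at h1
    have h2 : ((M + (s + 1)).choose (s + 1 + 1) : ℝ) * (s + 1 + 1) = C0 * M := by
      rw [hC0]
      exact_mod_cast h1
    have hp : (0 : ℝ) < (s : ℝ) + 1 + 1 := by positivity
    have h3 : ((M + (s + 1)).choose (s + 1 + 1) : ℝ) * (s + 1 + 1) = (2 * d * C0) * (s + 1 + 1) := by
      rw [h2, hMr]; ring
    exact mul_right_cancel₀ hp.ne' h3
  obtain ⟨E, hE⟩ : ∃ E : ℝ, E = (1 + 1 / (2 * (((s + 1 : ℕ) : ℝ) + 1))) ^ (s + 1 + 1) := ⟨_, rfl⟩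
  have hE1 := E_lt (s + 1)
  rw [← hE] at hE1
  have hE0 : 1 ≤ E := by
    rw [hE]
    apply one_le_pow₀
    have : (0 : ℝ) ≤ 1 / (2 * (((s + 1 : ℕ) : ℝ) + 1)) := by positivity
    linarith
  have f2 : ((M + d + (s + 1)).choose (s + 1 + 1) : ℝ) ≤ E * (2 * d * C0) := by
    have h1 := choose_grow d (s + 1 + 1) (M - 1)
    have h2 : M - 1 + d + (s + 1 + 1) = M + d + (s + 1) := by omega
    have h3 : M - 1 + (s + 1 + 1) = M + (s + 1) := by omega
    rw [h2, h3, f1, Nat.cast_sub hM1, Nat.cast_one, sub_add_cancel] at h1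
    have h4 : (d : ℝ) / M = 1 / (2 * (((s + 1 : ℕ) : ℝ) + 1)) := by
      rw [hMr]
      push_cast
      field_simp
    rw [h4, ← hE] at h1
    exact h1
  have f3 : ((M + 2 * d + (s + 1)).choose (s + 1) : ℝ) ≤ 3 * C0 := by
    have h1 := choose_grow (2 * d) (s + 1) M
    rw [← hC0] at h1
    refine h1.trans (mul_le_mul_of_nonneg_right ?_ hC0p.le)
    have h2 := E2_lt (s + 1)
    have h4 : ((2 * d : ℕ) : ℝ) / (M + 1) ≤ 1 / (((s + 1 : ℕ) : ℝ) + 1) := by
      rw [hMr]
      push_cast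
      rw [div_le_div_iff₀ (by positivity) (by positivity)]
      nlinarith
    have h5 : (0 : ℝ) ≤ ((2 * d : ℕ) : ℝ) / (M + 1) := by positivity
    calc (1 + ((2 * d : ℕ) : ℝ) / (M + 1)) ^ (s + 1)
        ≤ (1 + 1 / (((s + 1 : ℕ) : ℝ) + 1)) ^ (s + 1) :=
          pow_le_pow_left₀ (by linarith) (by linarith) _
      _ ≤ (1 + 1 / (((s + 1 : ℕ) : ℝ) + 1)) ^ (s + 1 + 1) := by
          apply pow_le_pow_right₀ _ (by omega)
          have : (0 : ℝ) ≤ 1 / (((s + 1 : ℕ) : ℝ) + 1) := by positivity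
          linarith
      _ ≤ 3 := h2.le
  have f4 : ((M + s + 1).choose (s + 1) : ℝ) = C0 := by rw [hC0]; rfl
  rw [f1, f4]
  have hrk' : 8 * (d : ℝ) ≤ 5 * ((s + 1) * k) := by exact_mod_cast hrk
  have g0 : b * ((M + d + (s + 1)).choose (s + 1 + 1) : ℝ) ≤ b * (E * (2 * d * C0)) :=
    mul_le_mul_of_nonneg_left f2 hb0.le
  have g1 : b * θ * ((M + 2 * d + (s + 1)).choose (s + 1) : ℝ) ≤ b * θ * (3 * C0) :=
    mul_le_mul_of_nonneg_left f3 (by positivity)
  have g2 : b * (2 * d * C0) + b * (E * (2 * d * C0)) + b * θ * (3 * C0) =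
      (w * C0 * d) * (β * (2 + 2 * E) + 3 * η) := by
    have : b * θ * (3 * C0) = w * (β * θ) * (3 * C0) := by rw [hb]; ring
    rw [this, hβθ', hb]
    ring
  have g3 : β * (2 + 2 * E) + 3 * η < 19 / 20 * (4 + 8 / 5) := by
    rw [hβ]
    nlinarith
  have g4 : (w * C0 * d) * (19 / 20 * (4 + 8 / 5)) ≤
      2 * (w * (19 / 20 * (2 * d * C0))) + (s + 1) * (k * (w * (19 / 20 * C0))) := by
    have h1 : (w * C0 * (19 / 20)) * (8 * (d : ℝ)) ≤ (w * C0 * (19 / 20)) * (5 * ((s + 1) * k)) :=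
      mul_le_mul_of_nonneg_left hrk' (by positivity)
    nlinarith
  have hwp : 0 < w * C0 * d := by positivity
  have g5 := mul_lt_mul_of_pos_left g3 hwp
  linarith

theorem crit_level (d k r : ℕ) (hd : 1 ≤ d) (hr1 : 1 ≤ r) (hrk : 8 * d ≤ 5 * (r * k)) (a : ℝ) (ha : 1 ≤ a) :
    Crit d k r a ((1 - 1 / (20 * ((r : ℝ) + 1))) * (a / d)) := by
  classical
  obtain ⟨s, rfl⟩ : ∃ s, r = s + 1 := ⟨r - 1, by omega⟩
  have hk1 : 1 ≤ k := by
    rcases Nat.eq_zero_or_pos k with h | h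
    · subst h; omega
    · exact h
  have hd0 : (0 : ℝ) < d := by exact_mod_cast (show 0 < d by omega)
  have hd1 : (1 : ℝ) ≤ d := by exact_mod_cast hd
  have hs0 : (0 : ℝ) ≤ s := by positivity
  obtain ⟨w, hw⟩ : ∃ w : ℝ, w = a / d := ⟨_, rfl⟩
  obtain ⟨η, hη⟩ : ∃ η : ℝ, η = 1 / (20 * (((s + 1 : ℕ) : ℝ) + 1)) := ⟨_, rfl⟩
  rw [← hw, ← hη]
  have hη0 : 0 < η := by rw [hη]; positivity
  have hηr : η * ((s : ℝ) + 1 + 1) = 1 / 20 := by
    rw [hη]
    push_cast
    field_simp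
  have hη1 : η ≤ 1 / 40 := by
    rw [hη]
    push_cast
    rw [div_le_div_iff₀ (by positivity) (by norm_num)]
    linarith
  obtain ⟨β, hβ⟩ : ∃ β : ℝ, β = 1 - η := ⟨_, rfl⟩
  rw [← hβ]
  have hw0 : 0 < w := by rw [hw]; positivity
  have hβ0 : 0 < β := by rw [hβ]; linarith
  obtain ⟨θ, hθ⟩ : ∃ θ : ℝ, θ = d * η / β := ⟨_, rfl⟩
  have hθ0 : 0 ≤ θ := by rw [hθ]; positivity
  have hθd : θ ≤ d := by
    rw [hθ, div_le_iff₀ hβ0]
    have : η ≤ β := by rw [hβ]; linarith
    exact mul_le_mul_of_nonneg_left this hd0.le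
  have hβθ : β * (d + θ) = d := by
    rw [hθ]
    field_simp
    rw [hβ]
    ring
  obtain ⟨b, hb⟩ : ∃ b : ℝ, b = β * w := ⟨_, rfl⟩
  rw [← hb]
  have hb0 : 0 < b := by rw [hb]; positivity
  obtain ⟨M, hM⟩ : ∃ M : ℕ, M = 2 * (s + 1 + 1) * d := ⟨_, rfl⟩
  have hMr : (M : ℝ) = 2 * (s + 1 + 1) * d := by rw [hM]; push_cast; ring
  have hM1 : 1 ≤ M := by
    rw [hM]
    have : 1 ≤ (s + 1 + 1) * d := Nat.mul_pos (by omega) (by omega)
    rw [mul_assoc]
    omega
  have hM0 : (0 : ℝ) < M := by exact_mod_cast hM1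
  obtain ⟨Δ, hΔ⟩ : ∃ Δ : ℝ, Δ = η * M := ⟨_, rfl⟩
  have hΔ0 : 0 ≤ Δ := by rw [hΔ]; positivity
  have hβM : β * M = M - Δ := by
    rw [hβ, hΔ]
    ring
  have hΔd : Δ * ((s : ℝ) + 1 + 1) = 1 / 20 * M := by
    rw [hΔ, mul_right_comm, hηr]
  have hbd : 1 ≤ b * (d + θ) := by
    have : b * (d + θ) = a := by
      calc b * (d + θ) = w * (β * (d + θ)) := by rw [hb]; ring
        _ = a := by rw [hβθ, hw]; field_simp
    rw [this]
    exact ha
  have hL : b * M = w * (M - Δ) := by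
    rw [← hβM, hb]
    ring
  -- the sums over `B`
  have hB0 : 19 / 20 * ((M + (s + 1)).choose (s + 1 + 1) : ℝ) ≤
      ∑ u ∈ A (s + 1) (M - 1), ((M : ℝ) - Δ - ∑ j, (u j : ℝ)) := by
    apply simplex_sum (s + 1) M Δ hΔ0 hM1
    push_cast
    linarith
  have hB1 : ∀ (i : Fin (s + 1)) (K : ℕ), M ≤ K → 19 / 20 * ((K + s + 1).choose (s + 1) : ℝ) ≤
      ∑ u ∈ (A (s + 1) K).filter (fun u => u i = 0), ((K : ℝ) + 1 - Δ - ∑ j, (u j : ℝ)) := by
    intro i K hK
    apply face_sum s K i Δ hΔ0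
    have h1 : (M : ℝ) ≤ K := by exact_mod_cast hK
    linarith
  refine ⟨1, fun _ => b * M,
    (({0, 1} : Finset ℕ) ×ˢ A (s + 1) (M - 1)).image pos0 ∪ (D3 (s + 1) k M).image neg1,
    S (s + 1) (M + 2 * d) b (b * M) + S (s + 1) (M + 2 * d) b (b * M + 1), ?_, ?_, ?_, ?_⟩
  · intro x y _
    exact le_rfl
  · intro p hp
    rw [mem_union, mem_image, mem_image] at hp
    rcases hp with ⟨q, hq, rfl⟩ | ⟨q, hq, rfl⟩
    · rw [mem_product, mem_insert, mem_singleton] at hq
      refine ⟨?_, ?_⟩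
      · show q.1 ≤ 1
        omega
      · show needs k (fun j => (q.2 j : ℤ)) ≤ q.1
        unfold needs
        rw [sum_eq_zero fun j _ => need_nonneg k (by omega) (q.2 j)]
        exact Nat.zero_le _
    · unfold D3 at hq
      rw [mem_filter, mem_product, mem_product, mem_Icc] at hq
      refine ⟨le_rfl, ?_⟩
      show needs k (Function.update (fun j => (q.2.2 j : ℤ)) q.1 (-(q.2.1 : ℤ))) ≤ 1
      unfold needs
      rw [sum_eq_single q.1]
      · rw [Function.update_self]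
        exact need_neg k (by omega) _ hq.1.2.1.2
      · intro j _ hj
        rw [Function.update_of_ne hj]
        exact need_nonneg k (by omega) _
      · intro h
        exact absurd (mem_univ _) h
  · intro T' hT
    refine sum_pairs_le (s + 1) (M + 2 * d) b (b * M) hb0.le ?_ T' hT
    push_cast
    have h1 : b * θ ≤ b * d := mul_le_mul_of_nonneg_left hθd hb0.le
    linarith
  · have hdisj : Disjoint ((({0, 1} : Finset ℕ) ×ˢ A (s + 1) (M - 1)).image pos0)
        ((D3 (s + 1) k M).image neg1) := by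
      rw [disjoint_left]
      intro p hp hp'
      rw [mem_image] at hp hp'
      obtain ⟨q, hq, rfl⟩ := hp
      obtain ⟨q', hq', h⟩ := hp'
      unfold D3 at hq'
      rw [mem_filter, mem_product, mem_product, mem_Icc] at hq'
      unfold neg1 pos0 at h
      rw [Prod.mk.injEq] at h
      have h3 := congrFun h.2 q'.1
      rw [Function.update_self] at h3
      have h4 := hq'.1.2.1.1
      have h5 : -(q'.2.1 : ℤ) = ((q.2 q'.1 : ℕ) : ℤ) := h3
      omega
    have hinj : Set.InjOn (neg1 (r := s + 1)) (D3 (s + 1) k M : Set _) :=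
      (neg1_inj (s + 1) k (M + k)).mono (by exact_mod_cast D3_sub (s + 1) k M)
    rw [sum_union hdisj, sum_image (fun x _ y _ h => pos0_inj h), sum_image hinj]
    have e0 : 2 * (w * (19 / 20 * ((M + (s + 1)).choose (s + 1 + 1) : ℝ))) ≤
        ∑ q ∈ ({0, 1} : Finset ℕ) ×ˢ A (s + 1) (M - 1), (b * M - a / d *
        ∑ i, (((pos0 q).2 i : ℤ) : ℝ)) := by
      rw [sum_product, sum_pair (by norm_num)]
      have e1 : ∀ t : ℕ, w * (19 / 20 * ((M + (s + 1)).choose (s + 1 + 1) : ℝ)) ≤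
          ∑ y ∈ A (s + 1) (M - 1), (b * M - a / d *
          ∑ i, (((pos0 (t, y)).2 i : ℤ) : ℝ)) := by
        intro t
        refine (mul_le_mul_of_nonneg_left hB0 hw0.le).trans_eq ?_
        rw [mul_sum]
        refine sum_congr rfl fun u _ => ?_
        have : ∀ i, (((pos0 (t, u)).2 i : ℤ) : ℝ) = (u i : ℝ) := fun i => by
          simp [pos0]
        simp only [this]
        rw [hL, hw]
        ring
      linarith [e1 0, e1 1]
    have e2 : (s + 1) * (k * (w * (19 / 20 * ((M + s + 1).choose (s + 1) : ℝ)))) ≤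
        ∑ q ∈ D3 (s + 1) k M, (b * M - a / d * ∑ i, (((neg1 q).2 i : ℤ) : ℝ)) := by
      unfold D3
      rw [sum_filter, sum_product]
      have e4 : ∀ (i : Fin (s + 1)), ∀ m ∈ Icc 1 k,
          w * (19 / 20 * ((M + s + 1).choose (s + 1) : ℝ)) ≤
          ∑ u ∈ A (s + 1) (M + k), if (u i = 0 ∧ ∑ j, u j + 1 ≤ M + m) then
            (b * M - a / d * ∑ j, (((neg1 (i, m, u)).2 j : ℤ) : ℝ)) else 0 := by
        intro i m hm
        rw [mem_Icc] at hm
        obtain ⟨hm1, hm2⟩ := hm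
        rw [← sum_filter]
        have hset : (A (s + 1) (M + k)).filter (fun u => u i = 0 ∧ ∑ j, u j + 1 ≤ M + m) =
            (A (s + 1) (M + (m - 1))).filter (fun u => u i = 0) := by
          ext u
          rw [mem_filter, mem_filter, mem_A, mem_A]
          constructor
          · rintro ⟨h1, h2, h3⟩
            exact ⟨by omega, h2⟩
          · rintro ⟨h1, h2⟩
            exact ⟨by omega, h2, by omega⟩
        rw [hset]
        have hmono : ((M + s + 1).choose (s + 1) : ℝ) ≤ ((M + (m - 1) + s + 1).choose (s + 1) : ℝ) := by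
          exact_mod_cast Nat.choose_le_choose (s + 1) (by omega)
        have h19 : w * (19 / 20 * ((M + s + 1).choose (s + 1) : ℝ)) ≤
            w * (19 / 20 * ((M + (m - 1) + s + 1).choose (s + 1) : ℝ)) :=
          mul_le_mul_of_nonneg_left (by linarith) hw0.le
        refine h19.trans ?_
        refine (mul_le_mul_of_nonneg_left (hB1 i (M + (m - 1)) (by omega)) hw0.le).trans_eq ?_
        rw [mul_sum]
        refine sum_congr rfl fun u hu => ?_
        rw [mem_filter] at hu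
        have h5 : ∑ j, (((neg1 (i, m, u)).2 j : ℤ) : ℝ) = ∑ j, (u j : ℝ) - m := by
          rw [Fin.sum_univ_succAbove _ i, Fin.sum_univ_succAbove (fun j => (u j : ℝ)) i]
          simp only [neg1, Function.update_self]
          have h6 : ∀ j : Fin s, Function.update (fun j => (u j : ℤ)) i (-(m : ℤ)) (i.succAbove j) =
              (u (i.succAbove j) : ℤ) := by
            intro j
            rw [Function.update_of_ne (Fin.succAbove_ne i j)]
          simp only [h6]
          rw [hu.2]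
          push_cast
          ring
        rw [h5, hL, hw]
        push_cast [Nat.cast_sub hm1]
        ring
      have e3 : ∀ i : Fin (s + 1), k * (w * (19 / 20 * ((M + s + 1).choose (s + 1) : ℝ))) ≤
          ∑ q ∈ Icc 1 k ×ˢ A (s + 1) (M + k),
          if (q.2 i = 0 ∧ ∑ j, q.2 j + 1 ≤ M + q.1) then
            (b * M - a / d * ∑ j, (((neg1 (i, q)).2 j : ℤ) : ℝ)) else 0 := by
        intro i
        rw [sum_product]
        calc k * (w * (19 / 20 * ((M + s + 1).choose (s + 1) : ℝ)))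
            = ∑ m ∈ Icc 1 k, w * (19 / 20 * ((M + s + 1).choose (s + 1) : ℝ)) := by
              rw [sum_const, Nat.card_Icc, nsmul_eq_mul, Nat.add_sub_cancel]
          _ ≤ _ := sum_le_sum (e4 i)
      calc (s + 1) * (k * (w * (19 / 20 * ((M + s + 1).choose (s + 1) : ℝ))))
          = ∑ i : Fin (s + 1), k * (w * (19 / 20 * ((M + s + 1).choose (s + 1) : ℝ))) := by
            rw [sum_const, card_univ, Fintype.card_fin, nsmul_eq_mul]
            push_cast
            ring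
        _ ≤ _ := sum_le_sum fun i _ => e3 i
    have v1 := S_first (s + 1) M (M + 2 * d) b hb0.le (by omega)
    have v2 := S_third (s + 1) M d (M + 2 * d) b θ hb0.le hθ0 hbd (by omega)
    refine lt_of_lt_of_le ?_ (add_le_add e0 e2)
    refine lt_of_le_of_lt (add_le_add v1 v2) ?_
    have hβθ' : β * θ = d * η := by
      rw [hθ]
      field_simp
    exact final_ineq d s k M η β θ b w hd0 hM1 hMr hη0 hη1 hβ hβ0 hθ0 hβθ' hw0 hb hb0 hrk

/-- admissibility from one level. -/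
theorem adm_level (d k r : ℕ) (hr1 : 1 ≤ r) (hrd : r < d) (hrk : 8 * d ≤ 5 * (r * k)) (a : ℝ)
    (h1 : 1 ≤ a) (h2 : a ≤ 1 + ((d : ℝ) - r) / (20 * d * (r + 1))) : Adm2 d k a := by
  have hd0 : (0 : ℝ) < d := by exact_mod_cast (show 0 < d by omega)
  have hrd' : (r : ℝ) + 1 ≤ d := by exact_mod_cast hrd
  have hr0 : (0 : ℝ) ≤ r := by positivity
  have hw : 0 < a / (d : ℝ) := by positivity
  have hη : 1 / (20 * ((r : ℝ) + 1)) ≤ 1 / 20 := by
    rw [div_le_div_iff₀ (by positivity) (by norm_num)]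
    linarith
  have hη0 : 0 < 1 / (20 * ((r : ℝ) + 1)) := by positivity
  have hb0 : 0 < (1 - 1 / (20 * ((r : ℝ) + 1))) * (a / d) := mul_pos (by linarith) hw
  refine adm_of_level d k r hr1 hrd a _ hb0 ?_ ?_ (crit_level d k r (by omega) hr1 hrk a h1)
  · nlinarith
  · obtain ⟨ε, hε⟩ : ∃ ε : ℝ, ε = ((d : ℝ) - r) / (20 * d * (r + 1)) := ⟨_, rfl⟩
    rw [← hε] at h2
    have hε0 : 0 < ε := by
      rw [hε]
      apply div_pos (by linarith) (by positivity)
    have hε1 : ε < 1 := by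
      rw [hε, div_lt_one (by positivity)]
      nlinarith
    have e1 : (r : ℝ) * (a / d) + ((d : ℝ) - r) * ((1 - 1 / (20 * ((r : ℝ) + 1))) * (a / d)) =
        a * (1 - ε) := by
      rw [hε]
      field_simp
      ring
    rw [e1]
    calc a * (1 - ε) ≤ (1 + ε) * (1 - ε) := mul_le_mul_of_nonneg_right h2 (by linarith)
      _ < 1 := by nlinarith


theorem exists_level (d k : ℕ) (hd : 3 ≤ d) (hk : 2 ≤ k) (hkd : k ≤ d) (h : ¬ (k = 2 ∧ d ≤ 4)) :
    ∃ r, 1 ≤ r ∧ r < d ∧ 8 * d ≤ 5 * (r * k) ∧ k * (r + 1) + 18 * r ≤ 18 * d := by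
  obtain ⟨r', hr'⟩ : ∃ r', r' = (8 * d - 1) / (5 * k) := ⟨_, rfl⟩
  have h1 : r' * (5 * k) ≤ 8 * d - 1 := by
    rw [hr']
    exact Nat.div_mul_le_self _ _
  have h2 : 8 * d - 1 < (r' + 1) * (5 * k) := by
    have h5k : 0 < 5 * k := by omega
    rw [hr', mul_comm (_ + 1) (5 * k)]
    exact Nat.lt_mul_div_succ (8 * d - 1) h5k
  have h3 : k * (r' + 1 + 1) + 18 * (r' + 1) ≤ 18 * d := by
    rcases Nat.eq_or_lt_of_le hk with h4 | h4
    · subst h4
      have h5 : 5 ≤ d := by omega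
      rcases Nat.lt_or_ge d 10 with h6 | h6
      · interval_cases d <;> omega
      · omega
    · have h5 : r' * 15 ≤ r' * (5 * k) := Nat.mul_le_mul_left _ (by omega)
      have h6 : k * r' * 5 = r' * (5 * k) := by ring
      have h7 : k * (r' + 1 + 1) = k * r' + 2 * k := by ring
      rcases Nat.lt_or_ge d 4 with h8 | h8
      · have hd3 : d = 3 := by omega
        subst hd3
        have hk3 : k = 3 := by omega
        subst hk3
        omega
      · omega
  refine ⟨r' + 1, by omega, ?_, ?_, h3⟩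
  · have h9 : 0 < k * (r' + 1 + 1) := by positivity
    omega
  · have h10 : (r' + 1) * (5 * k) = 5 * ((r' + 1) * k) := by ring
    omega

/-- every pair `2 ≤ k ≤ d`, `3 ≤ d` is admissible at every exponent from `1` to
`1 + k / (360 d)`. -/
theorem adm_linear (d k : ℕ) (hd : 3 ≤ d) (hk : 2 ≤ k) (hkd : k ≤ d) (a : ℝ) (h1 : 1 ≤ a)
    (h2 : a ≤ 1 + (k : ℝ) / (360 * d)) : Adm2 d k a := by
  have hd3 : (3 : ℝ) ≤ d := by exact_mod_cast hd
  have hd0 : (0 : ℝ) < d := by linarith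
  by_cases h : k = 2 ∧ d ≤ 4
  · obtain ⟨hk2, hd4⟩ := h
    subst hk2
    apply adm_explicit d 2 hd le_rfl a h1
    refine h2.trans ?_
    have h4 : (d : ℝ) ≤ 4 := by exact_mod_cast hd4
    have : ((2 : ℕ) : ℝ) / (360 * d) ≤ 1 / (21 * (d : ℝ) ^ 2) := by
      rw [div_le_div_iff₀ (by positivity) (by positivity)]
      push_cast
      nlinarith
    linarith
  · obtain ⟨r, hr1, hrd, hrk, hr⟩ := exists_level d k hd hk hkd h
    apply adm_level d k r hr1 hrd hrk a h1
    refine h2.trans ?_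
    have h5 : (k : ℝ) * (r + 1) + 18 * r ≤ 18 * d := by exact_mod_cast hr
    have : (k : ℝ) / (360 * d) ≤ ((d : ℝ) - r) / (20 * d * (r + 1)) := by
      rw [div_le_div_iff₀ (by positivity) (by positivity)]
      have h6 : (20 * (d : ℝ)) * ((k : ℝ) * (r + 1)) ≤ (20 * d) * (18 * (d - r)) :=
        mul_le_mul_of_nonneg_left (by linarith) (by positivity)
      nlinarith
    linarith


/-- the same for all `k ≥ 2`, with `min k d` in place of `k`. -/
theorem adm_min (d k : ℕ) (hd : 3 ≤ d) (hk : 2 ≤ k) (a : ℝ) (h1 : 1 ≤ a)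
    (h2 : a ≤ 1 + ((min k d : ℕ) : ℝ) / (360 * d)) : Adm2 d k a := by
  rcases le_or_gt k d with h | h
  · rw [min_eq_left h] at h2
    exact adm_linear d k hd hk h a h1 h2
  · rw [min_eq_right h.le] at h2
    have hd3 : (3 : ℝ) ≤ d := by exact_mod_cast hd
    have hd0 : (0 : ℝ) < d := by linarith
    apply adm_level d k 2 (by norm_num) (by omega) (by omega) a h1
    refine h2.trans ?_
    have : (d : ℝ) / (360 * d) ≤ ((d : ℝ) - (2 : ℕ)) / (20 * d * ((2 : ℕ) + 1)) := by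
      rw [div_le_div_iff₀ (by positivity) (by positivity)]
      push_cast
      nlinarith
    linarith

/-- the exponent of the degree `D` is good for all smaller degrees `d ≥ 3`. -/
theorem adm_lin (d D k : ℕ) (hd : 3 ≤ d) (hD : d ≤ D) (hk : 2 ≤ k) (a : ℝ) (h1 : 1 ≤ a)
    (h2 : a ≤ 1 + ((min k D : ℕ) : ℝ) / (360 * D)) : Adm2 d k a := by
  apply adm_min d k hd hk a h1
  refine h2.trans ?_
  have hd0 : (0 : ℝ) < d := by exact_mod_cast (show 0 < d by omega)
  have hD0 : (0 : ℝ) < D := by exact_mod_cast (show 0 < D by omega)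
  have hn : min k D * d ≤ min k d * D := by
    rcases le_or_gt k d with h | h
    · rw [min_eq_left h, min_eq_left (h.trans hD)]
      exact Nat.mul_le_mul_left _ hD
    · rw [min_eq_right h.le, mul_comm d D]
      exact Nat.mul_le_mul_right _ (min_le_right _ _)
  have hn' : ((min k D : ℕ) : ℝ) * d ≤ ((min k d : ℕ) : ℝ) * D := by exact_mod_cast hn
  have : ((min k D : ℕ) : ℝ) / (360 * D) ≤ ((min k d : ℕ) : ℝ) / (360 * d) := by
    rw [div_le_div_iff₀ (by positivity) (by positivity)]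
    linarith
  linarith

end Vale.Agent.P018.R2.H803
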