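import Vale.Agent.P018.R2.H803.Range16

/-! # P018, H803: for `k ≥ 45` the range grows by at least `9` degrees. -/

namespace Vale.Agent.P018.R2.H803

open Vale.Agent.P018.H867 Vale.Agent.P018.H867P Vale.Agent.P018.H867R

theorem more_one (d k : ℕ) (hk : 45 ≤ k) (h : 2 * d + 12 ≤ 7 * k) : InRangeX (d + 9) k := by
  rcases lt_or_ge d 152 with hd | hd
  · rcases lt_or_ge (d + 9) (2 * k) with h1 | h1
    · exact Or.inr (Or.inl h1)
    · rcases Nat.lt_or_ge (7 * k) (2 * (d + 9) + 12) with h2 | h2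
      · -- `90 ≤ d + 9 ≤ 160`, `k ≥ 45`
        refine Or.inr (Or.inr (Or.inr ?_))
        have hl2 := Real.log_two_lt_d9
        obtain ⟨D, hD⟩ : ∃ D : ℝ, D = ((d + 9 : ℕ) : ℝ) := ⟨_, rfl⟩
        have hD1 : D ≤ 160 := by
          rw [hD]
          exact_mod_cast (by omega : d + 9 ≤ 160)
        have hD0 : (1 : ℝ) ≤ D := by
          rw [hD]
          exact_mod_cast (by omega : 1 ≤ d + 9)
        have h128 : Real.log 128 = 7 * Real.log 2 := by
          rw [show (128 : ℝ) = 2 ^ 7 by norm_num, Real.log_pow]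
          norm_num
        have h5 : Real.log D ≤ 5.1021 := by
          have e1 : Real.log D ≤ Real.log 160 := Real.log_le_log (by linarith only [hD0]) hD1
          have e2 : Real.log (160 / 128) ≤ 160 / 128 - 1 := Real.log_le_sub_one_of_pos (by norm_num)
          rw [Real.log_div (by norm_num) (by norm_num), h128] at e2
          linarith only [e1, e2, hl2]
        have h6 : 0 ≤ Real.log D := Real.log_nonneg hD0
        have h7 : Real.log D ^ 2 ≤ 5.1021 ^ 2 := pow_le_pow_left₀ h6 h5 2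
        have h8 : (45 : ℝ) ≤ k := by exact_mod_cast hk
        rw [← hD]
        norm_num at h7
        linarith only [h5, h7, h8, hD1]
      · exact Or.inr (Or.inr (Or.inl h2))
  · refine Or.inr (Or.inr (Or.inr ?_))
    have hl2 := Real.log_two_lt_d9
    obtain ⟨D, hD⟩ : ∃ D : ℝ, D = ((d + 9 : ℕ) : ℝ) := ⟨_, rfl⟩
    have hDk : 2 * D - 6 ≤ 7 * k := by
      rw [hD]
      push_cast
      have : 2 * (d : ℝ) + 12 ≤ 7 * k := by exact_mod_cast h
      linarith only [this]
    have hD1 : 161 ≤ D := by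
      rw [hD]
      exact_mod_cast (by omega : 161 ≤ d + 9)
    obtain ⟨s, hs⟩ : ∃ s : ℝ, s = Real.sqrt (D / 128) := ⟨_, rfl⟩
    have hs2 : s ^ 2 * 128 = D := by
      rw [hs, Real.sq_sqrt (by linarith only [hD1])]
      field_simp
    have hs0 : 0 ≤ s := by rw [hs]; exact Real.sqrt_nonneg _
    have hs1 : 1.12 ≤ s := by
      by_contra hcon
      push Not at hcon
      have : s ^ 2 < 1.12 ^ 2 := pow_lt_pow_left₀ hcon hs0 (by norm_num)
      norm_num at this
      linarith only [this, hs2, hD1]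
    have h128 : Real.log 128 = 7 * Real.log 2 := by
      rw [show (128 : ℝ) = 2 ^ 7 by norm_num, Real.log_pow]
      norm_num
    -- `log s ≤ s/1.12 - 1 + log 1.12 ≤ s / 1.12 - 0.88`
    have h5 : Real.log D ≤ 3.0922 + 1.786 * s := by
      have e1 : Real.log (s / 1.12) ≤ s / 1.12 - 1 :=
        Real.log_le_sub_one_of_pos (by positivity)
      have e2 : Real.log 1.12 ≤ 1.12 - 1 := Real.log_le_sub_one_of_pos (by norm_num)
      rw [Real.log_div (by positivity) (by norm_num)] at e1
      have e3 : Real.log D = 2 * Real.log s + Real.log 128 := by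
        rw [← hs2, Real.log_mul (by positivity) (by norm_num), Real.log_pow]
        norm_num
      rw [e3, h128]
      norm_num at e1 e2
      linarith only [e1, e2, hl2, hs0]
    have h6 : 0 ≤ Real.log D := Real.log_nonneg (by linarith only [hD1])
    have h7 : Real.log D ^ 2 ≤ (3.0922 + 1.786 * s) ^ 2 := pow_le_pow_left₀ h6 h5 2
    rw [← hD]
    nlinarith only [h5, h7, hs1, hs2, hDk]

theorem more_two (d k : ℕ) (hd : 54 ≤ d) (h : (d : ℝ) / 4 + Real.log d ^ 2 / 8 + 4 ≤ k) :
    InRangeX (d + 9) k := by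
  refine Or.inr (Or.inr (Or.inr ?_))
  have hd' : (54 : ℝ) ≤ d := by exact_mod_cast hd
  have hd0 : (0 : ℝ) < d := by linarith only [hd']
  have hl2 := Real.log_two_lt_d9
  have h64 : Real.log 64 = 6 * Real.log 2 := by
    rw [show (64 : ℝ) = 2 ^ 6 by norm_num, Real.log_pow]
    norm_num
  obtain ⟨L, hL⟩ : ∃ L, L = Real.log (d : ℝ) := ⟨_, rfl⟩
  obtain ⟨ε, hε⟩ : ∃ ε : ℝ, ε = 9 / (d : ℝ) := ⟨_, rfl⟩
  have hε0 : 0 < ε := by rw [hε]; positivity
  have hε1 : ε ≤ 1 / 6 := by
    rw [hε, div_le_iff₀ hd0]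
    linarith only [hd']
  have hL0 : 0 ≤ L := by rw [hL]; exact Real.log_nonneg (by linarith only [hd'])
  -- `L ≤ d/64 - 1 + log 64`
  have hL1 : L ≤ 3.1589 + d / 64 := by
    have e1 : Real.log ((d : ℝ) / 64) ≤ d / 64 - 1 := Real.log_le_sub_one_of_pos (by positivity)
    rw [Real.log_div hd0.ne' (by norm_num), h64] at e1
    rw [hL]
    linarith only [e1, hl2]
  have hLε : L * ε ≤ 0.68 := by
    have e1 : L * ε ≤ (3.1589 + d / 64) * ε := mul_le_mul_of_nonneg_right hL1 hε0.le
    have e2 : ((d : ℝ) / 64) * ε = 9 / 64 := by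
      rw [hε]
      field_simp
    linarith only [e1, e2, hε1]
  have h2 : Real.log ((d : ℝ) + 9) ≤ L + ε := by
    have e1 : Real.log (((d : ℝ) + 9) / d) ≤ ((d : ℝ) + 9) / d - 1 :=
      Real.log_le_sub_one_of_pos (by positivity)
    rw [Real.log_div (by positivity) hd0.ne', ← hL] at e1
    have e2 : ((d : ℝ) + 9) / d - 1 = ε := by
      rw [hε]
      field_simp
      ring
    rw [e2] at e1
    linarith only [e1]
  have h3 : 0 ≤ Real.log ((d : ℝ) + 9) := Real.log_nonneg (by linarith only [hd'])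
  have h4 : Real.log ((d : ℝ) + 9) ^ 2 ≤ (L + ε) ^ 2 := pow_le_pow_left₀ h3 h2 2
  push_cast
  rw [← hL] at h
  have h5 : ε ^ 2 ≤ 1 / 6 * ε := by
    rw [sq]
    exact mul_le_mul_of_nonneg_right hε1 hε0.le
  nlinarith only [h, h2, h4, h5, hLε, hε1, hε0, sq_nonneg (L - 4)]

/-- for `k ≥ 45` the new range contains at least `9` further degrees. -/
theorem more (d k : ℕ) (hk : 45 ≤ k) (h : InRangeW d k) : InRangeX (d + 9) k := by
  rcases h with h | h | h | h
  · exact Or.inr (Or.inl (by omega))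
  · exact more_one d k hk (by omega)
  · exact more_one d k hk h
  · rcases lt_or_ge d 54 with h1 | h1
    · exact Or.inr (Or.inl (by omega))
    · exact more_two d k h1 h

end Vale.Agent.P018.R2.H803
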