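import Vale.Agent.P018.R2.H803.Gain
import Vale.Agent.P018.H867P.Fin

/-! # P018, H803: `k ≥ d/4 + (log d)^2/16 + (log d)/2 + 1/2`, `d ≥ 54`, is admissible. -/

namespace Vale.Agent.P018.R2.H803

open Finset Polynomial Vale.Agent.P018.K Vale.Agent.P018.K2 Vale.Agent.P018.K3
  Vale.Agent.P018.H867R

/-- the size of the range. -/
noncomputable def bnd (d : ℕ) : ℝ := (d : ℝ) / 4 + Real.log d ^ 2 / 16 + Real.log d / 2 + 1 / 2

theorem adm2_sixteenth (d k : ℕ) (hd : 54 ≤ d) (hkd : k ≤ d) (h : bnd d ≤ k) (a : ℝ)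
    (ha : 1 ≤ a) (ha2 : a ≤ (d : ℝ) / k) : Adm2 d k a := by
  have hd' : (54 : ℝ) ≤ d := by exact_mod_cast hd
  have hd0 : (0 : ℝ) < d := by linarith only [hd']
  have hLd : 0 ≤ Real.log (d : ℝ) := Real.log_nonneg (by linarith only [hd'])
  have hkq : (d : ℝ) / 4 ≤ k := by
    unfold bnd at h
    linarith only [h, sq_nonneg (Real.log (d : ℝ)), hLd]
  have hk0 : (0 : ℝ) < k := by linarith only [hkq, hd']
  have hk1 : 1 ≤ k := by exact_mod_cast (Nat.one_le_iff_ne_zero.2 (by rintro rfl; simp at hk0))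
  have ha0 : 0 < a := by linarith only [ha]
  obtain ⟨w, hw⟩ : ∃ w : ℝ, w = a / d := ⟨_, rfl⟩
  have hw0 : 0 < w := by rw [hw]; positivity
  obtain ⟨κ, hκ⟩ : ∃ κ : ℝ, κ = w * k := ⟨_, rfl⟩
  have hκ1 : κ ≤ 1 := by
    rw [hκ, hw, div_mul_eq_mul_div, div_le_one hd0]
    rwa [le_div_iff₀ hk0] at ha2
  have hκ4 : 1 / 4 ≤ κ := by
    rw [hκ, hw, div_mul_eq_mul_div, le_div_iff₀ hd0]
    linarith only [mul_nonneg (sub_nonneg.2 ha) (le_of_lt (sub_pos.2 hd0)),
      mul_nonneg (sub_nonneg.2 hkq) (le_of_lt (sub_pos.2 ha0))]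
  have hκ0 : 0 < κ := by linarith only [hκ4]
  obtain ⟨δ, hδ⟩ : ∃ δ : ℝ, δ = 1 / (10000 * (d : ℝ)) := ⟨_, rfl⟩
  have hδ0 : 0 < δ := by rw [hδ]; positivity
  obtain ⟨P, hP⟩ : ∃ P : ℕ → ℝ, P = fun r : ℕ => (4 * κ) ^ (-(1 / (r : ℝ))) := ⟨_, rfl⟩
  have hP0 : ∀ r, 0 < P r := by
    intro r
    rw [hP]
    exact Real.rpow_pos_of_pos (by linarith only [hκ0]) _
  have hPpow : ∀ r : ℕ, 1 ≤ r → P r ^ r = (4 * κ)⁻¹ := by
    intro r hr
    have hr0 : (r : ℝ) ≠ 0 := by exact_mod_cast (show r ≠ 0 by omega)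
    rw [hP]
    simp only
    rw [← Real.rpow_natCast, ← Real.rpow_mul (by linarith only [hκ0]), neg_mul,
      one_div_mul_cancel hr0, Real.rpow_neg_one]
  obtain ⟨t, ht⟩ : ∃ t : ℕ → ℝ, t = fun r => if r < 2 then w else (1 + δ) * (u r * P r) / k :=
    ⟨_, rfl⟩
  have htpos : ∀ r, 0 < t r := by
    intro r
    rw [ht]
    simp only
    split
    · exact hw0
    · have := u_pos r
      have := hP0 r
      positivity
  refine ⟨rmin w t, by rw [rmin, hw], fun r => min_le_left _ _,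
    rmin_pos w t hw0 htpos _, ?_, ?_⟩
  · -- the criterion
    intro r hr1 hr2 hlt
    obtain ⟨s, rfl⟩ : ∃ s, r = s + 1 := ⟨r - 1, by omega⟩
    rw [Nat.add_sub_cancel] at hlt
    have hEq : rmin w t (s + 1) = t (s + 1) := by
      rw [rmin]
      refine min_eq_right ?_
      by_contra hcon
      push Not at hcon
      rw [rmin, min_eq_left hcon.le] at hlt
      exact lt_irrefl _ hlt
    have hr4 : 2 ≤ s + 1 := by
      by_contra hcon
      have h1 : t (s + 1) = w := by
        rw [ht]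
        simp only
        rw [if_pos (by omega)]
      rw [hEq, h1] at hlt
      exact absurd (rmin_le_w w t s) (not_le.2 hlt)
    generalize s + 1 = r at hEq hr4 hr1 hr2
    rw [hEq]
    have htr : t r = (1 + δ) * (u r * P r) / k := by
      rw [ht]
      simp only
      rw [if_neg (by omega)]
    refine crit_zero d k r (by omega) hk1 hr1 a (t r) ha0 (htpos r) ?_
    have hcb := cb_pos r
    have hcb' : (((2 * r).choose (r - 1) : ℕ) : ℝ) = cb r := rfl
    rw [← hw, htr, div_pow, mul_pow, mul_pow, u_pow r hr1, hPpow r hr1, hcb']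
    have h3 : 1 < (1 + δ) ^ r := one_lt_pow₀ (by linarith only [hδ0]) (by omega)
    have e1 : (1 + δ) ^ r * (4 / cb r * (4 * κ)⁻¹) / (k : ℝ) ^ r * w * (k : ℝ) ^ (r + 1) * cb r =
        (1 + δ) ^ r * ((w * k) / κ) := by
      rw [pow_succ (k : ℝ)]
      field_simp
    rw [e1, ← hκ, div_self hκ0.ne', mul_one]
    exact h3
  · -- the sum
    have hu2 : u 2 = 1 := by
      have e1 : cb 2 = 4 := by
        unfold cb
        norm_num [Nat.choose]
      unfold u
      rw [e1]
      norm_num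
    have hP2 : P 2 = (4 * κ) ^ (-(1 / 2 : ℝ)) := by
      rw [hP]
      norm_num
    have hw' : w = κ / k := by
      rw [hκ]
      field_simp
    have h0 : ∑ r ∈ range 3, rmin w t r ≤ (2 * κ + (1 + δ) * min κ (P 2)) / k := by
      rw [Finset.sum_range_succ, Finset.sum_range_succ, Finset.sum_range_one]
      have e0 := rmin_le_w w t 0
      have e1 := rmin_le_w w t 1
      have e2 : rmin w t 2 ≤ (1 + δ) * min κ (P 2) / k := by
        have f1 := rmin_le_w w t 2
        have f2 : rmin w t 2 ≤ t 2 := min_le_right _ _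
        have f3 : t 2 = (1 + δ) * P 2 / k := by
          rw [ht]
          simp only
          rw [if_neg (by omega), hu2, one_mul]
        rw [f3] at f2
        rcases le_total κ (P 2) with h5 | h5
        · rw [min_eq_left h5]
          refine f1.trans ?_
          rw [hw']
          have : κ ≤ (1 + δ) * κ := by
            linarith only [mul_nonneg hδ0.le hκ0.le]
          gcongr
        · rw [min_eq_right h5]
          exact f2
      have e3 : (2 * κ + (1 + δ) * min κ (P 2)) / k = κ / k + κ / k + (1 + δ) * min κ (P 2) / k := by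
        ring
      rw [e3, ← hw']
      linarith only [e0, e1, e2]
    have h1 : ∑ r ∈ range d, rmin w t r ≤
        (2 * κ + (1 + δ) * min κ (P 2)) / k + ∑ r ∈ Ico 3 d, t r := by
      rw [Finset.range_eq_Ico, ← Finset.sum_Ico_consecutive (rmin w t) (show 0 ≤ 3 by norm_num)
        (show 3 ≤ d by omega)]
      refine add_le_add ?_ ?_
      · rw [← Finset.range_eq_Ico]
        exact h0
      · refine sum_le_sum fun r hr => ?_
        rw [mem_Ico] at hr
        obtain ⟨s, rfl⟩ : ∃ s, r = s + 1 := ⟨r - 1, by omega⟩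
        exact min_le_right _ _
    refine lt_of_le_of_lt h1 ?_
    have h2 : ∑ r ∈ Ico 3 d, t r = (1 + δ) * (∑ r ∈ Ico 3 d, u r * P r) / k := by
      rw [mul_sum, sum_div]
      refine sum_congr rfl fun r hr => ?_
      rw [mem_Ico] at hr
      rw [ht]
      simp only
      rw [if_neg (by omega)]
    rw [h2]
    have h3 := total d hd κ hκ4 hκ1
    have h3' : 2 * κ + min κ (P 2) + ∑ r ∈ Ico 3 d, u r * P r + 0.0005 ≤ bnd d := by
      rw [hP2, hP]
      exact h3
    obtain ⟨S, hS⟩ : ∃ S : ℝ, S = ∑ r ∈ Ico 3 d, u r * P r := ⟨_, rfl⟩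
    rw [← hS] at h3' ⊢
    have hkd' : (k : ℝ) ≤ d := by exact_mod_cast hkd
    obtain ⟨m, hm⟩ : ∃ m : ℝ, m = min κ (P 2) := ⟨_, rfl⟩
    rw [← hm] at h3' ⊢
    have h5 : δ * (m + S) ≤ 0.0001 := by
      have e1 : m + S ≤ d := by linarith only [h3', h, hkd', hκ0]
      have e2 : δ * (m + S) ≤ δ * d := mul_le_mul_of_nonneg_left e1 hδ0.le
      have e3 : δ * (d : ℝ) = 0.0001 := by
        rw [hδ]
        field_simp
        norm_num
      linarith only [e2, e3]
    have h6 : 2 * κ + (1 + δ) * m + (1 + δ) * S < k := by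
      have e1 : 2 * κ + (1 + δ) * m + (1 + δ) * S = 2 * κ + m + S + δ * (m + S) := by ring
      rw [e1]
      linarith only [h5, h3', h]
    rw [← add_div, div_lt_one hk0]
    exact h6

end Vale.Agent.P018.R2.H803
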