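import Vale.Agent.P018.R2.H803.Linear

/-! # P018, H803: both explicit exponents together. -/

set_option linter.all false

namespace Vale.Agent.P018.R2.H803

open Vale.Agent.P018.K2

/-- the exponent `1 + max (1 / (21 D²)) (min k D / (360 D))` of the degree `D` is good for all
degrees `3 ≤ d ≤ D`. -/
theorem adm_best (d D k : ℕ) (hd : 3 ≤ d) (hD : d ≤ D) (hk : 2 ≤ k) (a : ℝ) (h1 : 1 ≤ a)
    (h2 : a ≤ 1 + max (1 / (21 * (D : ℝ) ^ 2)) (((min k D : ℕ) : ℝ) / (360 * D))) :
    Adm2 d k a := by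
  rcases le_total (1 / (21 * (D : ℝ) ^ 2)) (((min k D : ℕ) : ℝ) / (360 * D)) with h | h
  · rw [max_eq_right h] at h2
    exact adm_lin d D k hd hD hk a h1 h2
  · rw [max_eq_left h] at h2
    refine adm_explicit d k hd hk a h1 (h2.trans ?_)
    have hd0 : (0 : ℝ) < d := by exact_mod_cast (show 0 < d by omega)
    have hD' : (d : ℝ) ≤ D := by exact_mod_cast hD
    gcongr

end Vale.Agent.P018.R2.H803
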