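import Vale.Agent.P018.H867P.AdmOne

/-! # P018, H803: the exponent `1` is admissible as soon as `d^d < binom(2d-2, d-2) k^d`. -/

namespace Vale.Agent.P018.R2.H803

open Finset Vale.Agent.P018.K Vale.Agent.P018.K2 Vale.Agent.P018.K3 Vale.Agent.P018.H867P

theorem adm2_one (d k : ℕ) (hd : 3 ≤ d) (hk : 1 ≤ k)
    (h : d ^ d < (2 * d - 2).choose (d - 2) * k ^ d) : Adm2 d k 1 := by
  have hd0 : (0 : ℝ) < d := by exact_mod_cast (show 0 < d by omega)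
  have hk0 : (0 : ℝ) < k := by exact_mod_cast hk
  obtain ⟨C, hC⟩ : ∃ C : ℝ, C = ((2 * d - 2).choose (d - 2) : ℕ) := ⟨_, rfl⟩
  have hR : (d : ℝ) ^ d < C * (k : ℝ) ^ d := by
    rw [hC]
    exact_mod_cast h
  obtain ⟨ρ, hρ⟩ : ∃ ρ : ℝ, ρ = C * (k : ℝ) ^ d / (d : ℝ) ^ d := ⟨_, rfl⟩
  have hρ1 : 1 < ρ := by
    rw [hρ, one_lt_div (by positivity)]
    exact hR
  have hcont : Filter.Tendsto (fun s : ℝ => s ^ (d - 1) * ρ) (nhdsWithin 1 (Set.Iio 1))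
      (nhds (1 ^ (d - 1) * ρ)) :=
    ((continuous_id.pow (d - 1)).mul continuous_const).continuousAt.tendsto.mono_left
      nhdsWithin_le_nhds
  rw [one_pow, one_mul] at hcont
  have h1 : ∀ᶠ s : ℝ in nhdsWithin 1 (Set.Iio 1), 1 < s ^ (d - 1) * ρ :=
    hcont.eventually (lt_mem_nhds hρ1)
  have h2 : ∀ᶠ s : ℝ in nhdsWithin 1 (Set.Iio 1), 0 < s :=
    (lt_mem_nhds (zero_lt_one' ℝ)).filter_mono nhdsWithin_le_nhds
  obtain ⟨s, hs1, hs0, hs⟩ := (h1.and (h2.and self_mem_nhdsWithin)).exists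
  have hs' : s < 1 := hs
  refine adm_of_last d k hd (s / d) (by positivity) ?_ ?_
  · exact div_lt_div_of_pos_right hs' hd0
  · refine crit_zero d k (d - 1) (by omega) hk (by omega) 1 (s / d) one_pos (by positivity) ?_
    have e1 : (((2 * (d - 1)).choose (d - 1 - 1) : ℕ) : ℝ) = C := by
      rw [hC, show 2 * (d - 1) = 2 * d - 2 by omega, show d - 1 - 1 = d - 2 by omega]
    rw [e1, show d - 1 + 1 = d by omega]
    have e2 : (s / d) ^ (d - 1) * (1 / (d : ℝ)) * (k : ℝ) ^ d * C = s ^ (d - 1) * ρ := by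
      obtain ⟨e, rfl⟩ : ∃ e, d = e + 1 := ⟨d - 1, by omega⟩
      rw [hρ, Nat.add_sub_cancel, div_pow, pow_succ ((e + 1 : ℕ) : ℝ)]
      field_simp
    rw [e2]
    exact hs1

end Vale.Agent.P018.R2.H803
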