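import Vale.Agent.P018.R2.H699.AdmAll

/-! # P018, H803: an explicit exponent beyond `1` for every pair `3 ≤ d`, `2 ≤ k`. -/

set_option linter.all false

namespace Vale.Agent.P018.R2.H803

open Finset Vale.Agent.P018.K Vale.Agent.P018.K2 Vale.Agent.P018.H699

theorem adm_of_last_a (d k : ℕ) (hd : 2 ≤ d) (a : ℝ) (b : ℝ) (hb0 : 0 < b) (hb1 : b < a / d)
    (hs : ((d : ℝ) - 1) * (a / d) + b < 1)
    (h : Crit d k (d - 1) a b) : Adm2 d k a := by
  have hd0 : (0 : ℝ) < d := by exact_mod_cast (show 0 < d by omega)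
  refine ⟨fun r => if r < d - 1 then a / (d : ℝ) else b, ?_, ?_, ?_, ?_, ?_⟩
  · simp only
    rw [if_pos (by omega)]
  · intro r
    simp only
    split_ifs with h1 h2 h2
    · exact le_rfl
    · omega
    · exact hb1.le
    · exact le_rfl
  · simp only
    rw [if_neg (by omega)]
    exact hb0
  · intro r hr1 hrd hlt
    have h1 : r = d - 1 := by
      by_contra hne
      simp only at hlt
      rw [if_pos (by omega), if_pos (by omega)] at hlt
      exact lt_irrefl _ hlt
    subst h1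
    simp only
    rw [if_neg (by omega)]
    exact h
  · obtain ⟨e, rfl⟩ : ∃ e, d = e + 1 := ⟨d - 1, by omega⟩
    rw [Finset.sum_range_succ]
    simp only [Nat.add_sub_cancel, lt_irrefl, if_false]
    rw [Finset.sum_congr rfl (g := fun _ => a / ((e + 1 : ℕ) : ℝ)) (fun r hr => by
      rw [if_pos (Finset.mem_range.1 hr)])]
    rw [Finset.sum_const, Finset.card_range, nsmul_eq_mul]
    push_cast at hs ⊢
    linarith

/-- the weighted number of points of the simplex. -/
theorem W_val (r M : ℕ) : ∑ u ∈ A r M, ((M : ℝ) - ∑ j, (u j : ℝ)) = ((M + r).choose (r + 1) : ℕ) := by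
  classical
  induction M with
  | zero =>
    rw [sum_eq_zero, zero_add, Nat.choose_eq_zero_of_lt (by omega)]
    · simp
    · intro u hu
      rw [mem_A] at hu
      have : (∑ j, (u j : ℝ)) = 0 := by
        have h : ((∑ j, u j : ℕ) : ℝ) = 0 := by exact_mod_cast (by omega : ∑ j, u j = 0)
        push_cast at h
        exact h
      rw [this]
      simp
  | succ M ih =>
    have h1 : M + 1 + r = (M + r) + 1 := by ring
    rw [h1, Nat.choose_succ_succ]
    push_cast
    rw [← ih, ← card_A, card_eq_sum_ones]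
    push_cast
    rw [← sum_add_distrib]
    symm
    have hsub : A r M ⊆ A r (M + 1) := by
      intro u hu
      rw [mem_A] at hu ⊢
      omega
    rw [← sum_subset hsub]
    · refine sum_congr rfl fun u _ => ?_
      ring
    · intro u hu hu'
      rw [mem_A] at hu hu'
      have h2 : ∑ j, u j = M + 1 := by omega
      have h3 : (∑ j, (u j : ℝ)) = M + 1 := by exact_mod_cast h2
      rw [h3]
      ring

/-- the points of a face. -/
theorem card_face (s K : ℕ) (i : Fin (s + 1)) :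
    ((A (s + 1) K).filter fun u => u i = 0).card = (K + s).choose s := by
  classical
  rw [← card_A]
  refine card_nbij' (fun u j => u (i.succAbove j)) (fun v => Fin.insertNth i 0 v) ?_ ?_ ?_ ?_
  · intro u hu
    rw [mem_coe, mem_filter, mem_A, Fin.sum_univ_succAbove _ i] at hu
    rw [mem_coe, mem_A]
    show ∑ j : Fin s, u (i.succAbove j) ≤ K
    omega
  · intro v hv
    rw [mem_coe, mem_A] at hv
    rw [mem_coe, mem_filter, mem_A, Fin.sum_univ_succAbove _ i]
    simp only [Fin.insertNth_apply_same, Fin.insertNth_apply_succAbove]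
    refine ⟨?_, trivial⟩
    omega
  · intro u hu
    rw [mem_coe, mem_filter] at hu
    funext j
    refine Fin.succAboveCases i ?_ (fun j => ?_) j
    · simp [hu.2]
    · simp
  · intro v hv
    funext j
    simp

/-- the weighted sum over a face. -/
theorem face_sum (s K : ℕ) (i : Fin (s + 1)) (Δ : ℝ) (hΔ : 0 ≤ Δ)
    (hK : Δ * (s + 1) ≤ 1 / 20 * (K + s + 1)) :
    19 / 20 * ((K + s + 1).choose (s + 1) : ℝ) ≤
      ∑ u ∈ (A (s + 1) K).filter (fun u => u i = 0), ((K : ℝ) + 1 - Δ - ∑ j, (u j : ℝ)) := by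
  classical
  have h1 := card_le_face (r := s + 1) (N := K + 1) i (by omega)
  rw [Nat.add_sub_cancel, card_A] at h1
  have hsub : (A (s + 1) K).filter (fun u => u i = 0) ⊆ (A (s + 1) (K + 1)).filter (fun u => u i = 0) := by
    intro u hu
    rw [mem_filter, mem_A] at hu ⊢
    omega
  rw [← sum_subset hsub] at h1
  · have h2 : ∑ u ∈ (A (s + 1) K).filter (fun u => u i = 0), ((K : ℝ) + 1 - Δ - ∑ j, (u j : ℝ)) =
        ∑ u ∈ (A (s + 1) K).filter (fun u => u i = 0), (((K + 1 : ℕ) : ℝ) - ∑ j, (u j : ℝ)) -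
        Δ * ((K + s).choose s : ℝ) := by
      rw [← card_face s K i, card_eq_sum_ones]
      push_cast
      rw [mul_sum, ← sum_sub_distrib]
      refine sum_congr rfl fun u _ => ?_
      ring
    rw [h2]
    have h3 : (K + s + 1) * (K + s).choose s = (K + s + 1).choose (s + 1) * (s + 1) :=
      Nat.add_one_mul_choose_eq (K + s) s
    have h3' : ((K : ℝ) + s + 1) * ((K + s).choose s : ℝ) =
        ((K + s + 1).choose (s + 1) : ℝ) * (s + 1) := by exact_mod_cast h3
    have h4 : Δ * ((K + s).choose s : ℝ) ≤ 1 / 20 * ((K + s + 1).choose (s + 1) : ℝ) := by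
      have hpos : (0 : ℝ) < (K : ℝ) + s + 1 := by positivity
      have hc : (0 : ℝ) ≤ ((K + s + 1).choose (s + 1) : ℝ) := by positivity
      refine le_of_mul_le_mul_left ?_ hpos
      calc ((K : ℝ) + s + 1) * (Δ * ((K + s).choose s : ℝ))
          = (Δ * (s + 1)) * ((K + s + 1).choose (s + 1) : ℝ) := by
            rw [mul_left_comm, h3']; ring
        _ ≤ (1 / 20 * (K + s + 1)) * ((K + s + 1).choose (s + 1) : ℝ) :=
            mul_le_mul_of_nonneg_right hK hc
        _ = _ := by ring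
    have h5 : (K + (s + 1)).choose (s + 1) = (K + s + 1).choose (s + 1) := rfl
    rw [h5] at h1
    linarith
  · intro u hu hu'
    rw [mem_filter, mem_A] at hu hu'
    have h2 : ∑ j, u j = K + 1 := by
      by_contra hne
      exact hu' ⟨by omega, hu.2⟩
    have h3 : (∑ j, (u j : ℝ)) = ((K + 1 : ℕ) : ℝ) := by exact_mod_cast h2
    rw [h3]
    ring

/-- the weighted sum over the simplex. -/
theorem simplex_sum (r M : ℕ) (Δ : ℝ) (hΔ : 0 ≤ Δ) (hM : 1 ≤ M)
    (hK : Δ * (r + 1) ≤ 1 / 20 * (M + r)) :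
    19 / 20 * ((M + r).choose (r + 1) : ℝ) ≤
      ∑ u ∈ A r (M - 1), ((M : ℝ) - Δ - ∑ j, (u j : ℝ)) := by
  classical
  obtain ⟨K, rfl⟩ : ∃ K, M = K + 1 := ⟨M - 1, by omega⟩
  rw [Nat.add_sub_cancel]
  have h1 := W_val r (K + 1)
  have hsub : A r K ⊆ A r (K + 1) := by
    intro u hu
    rw [mem_A] at hu ⊢
    omega
  rw [← sum_subset hsub] at h1
  · have h2 : ∑ u ∈ A r K, (((K + 1 : ℕ) : ℝ) - Δ - ∑ j, (u j : ℝ)) =
        ∑ u ∈ A r K, (((K + 1 : ℕ) : ℝ) - ∑ j, (u j : ℝ)) -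
        Δ * ((K + r).choose r : ℝ) := by
      rw [← card_A r K, card_eq_sum_ones]
      push_cast
      rw [mul_sum, ← sum_sub_distrib]
      refine sum_congr rfl fun u _ => ?_
      ring
    rw [h2, h1]
    have h3 : (K + r + 1) * (K + r).choose r = (K + r + 1).choose (r + 1) * (r + 1) :=
      Nat.add_one_mul_choose_eq (K + r) r
    have h3' : ((K : ℝ) + r + 1) * ((K + r).choose r : ℝ) =
        ((K + r + 1).choose (r + 1) : ℝ) * (r + 1) := by exact_mod_cast h3
    have h6 : (K + 1 + r).choose (r + 1) = (K + r + 1).choose (r + 1) := by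
      congr 1; ring
    rw [h6]
    have h4 : Δ * ((K + r).choose r : ℝ) ≤ 1 / 20 * ((K + r + 1).choose (r + 1) : ℝ) := by
      have hpos : (0 : ℝ) < (K : ℝ) + r + 1 := by positivity
      have hc : (0 : ℝ) ≤ ((K + r + 1).choose (r + 1) : ℝ) := by positivity
      push_cast at hK
      refine le_of_mul_le_mul_left ?_ hpos
      calc ((K : ℝ) + r + 1) * (Δ * ((K + r).choose r : ℝ))
          = (Δ * (r + 1)) * ((K + r + 1).choose (r + 1) : ℝ) := by
            rw [mul_left_comm, h3']; ring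
        _ ≤ (1 / 20 * (K + 1 + r)) * ((K + r + 1).choose (r + 1) : ℝ) :=
            mul_le_mul_of_nonneg_right hK hc
        _ = _ := by ring
    linarith
  · intro u hu hu'
    rw [mem_A] at hu hu'
    have h2 : ∑ j, u j = K + 1 := by omega
    have h3 : (∑ j, (u j : ℝ)) = ((K + 1 : ℕ) : ℝ) := by exact_mod_cast h2
    rw [h3]
    ring

/-- growth of the number of points of the simplex. -/
theorem choose_grow (d r M : ℕ) :
    ((M + d + r).choose r : ℝ) ≤ (1 + (d : ℝ) / (M + 1)) ^ r * ((M + r).choose r : ℝ) := by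
  induction r with
  | zero => simp
  | succ r ih =>
    have h1 : (M + d + r + 1) * (M + d + r).choose r = (M + d + r + 1).choose (r + 1) * (r + 1) :=
      Nat.add_one_mul_choose_eq _ _
    have h2 : (M + r + 1) * (M + r).choose r = (M + r + 1).choose (r + 1) * (r + 1) :=
      Nat.add_one_mul_choose_eq _ _
    have h1' : ((M : ℝ) + d + r + 1) * ((M + d + r).choose r : ℝ) =
        ((M + d + r + 1).choose (r + 1) : ℝ) * (r + 1) := by exact_mod_cast h1
    have h2' : ((M : ℝ) + r + 1) * ((M + r).choose r : ℝ) =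
        ((M + r + 1).choose (r + 1) : ℝ) * (r + 1) := by exact_mod_cast h2
    have hr : (0 : ℝ) < (r : ℝ) + 1 := by positivity
    have hM : (0 : ℝ) < (M : ℝ) + 1 := by positivity
    have hx : (0 : ℝ) ≤ (d : ℝ) / (M + 1) := by positivity
    have h3 : (M : ℝ) + d + r + 1 ≤ (1 + (d : ℝ) / (M + 1)) * (M + r + 1) := by
      have h4 : (d : ℝ) ≤ (d : ℝ) / (M + 1) * (M + r + 1) := by
        have : (d : ℝ) / (M + 1) * (M + 1) = d := by field_simp
        have h5 : (0 : ℝ) ≤ (d : ℝ) / (M + 1) * r := by positivity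
        linarith
      linarith
    show ((M + d + r + 1).choose (r + 1) : ℝ) ≤
      (1 + (d : ℝ) / (M + 1)) ^ (r + 1) * ((M + r + 1).choose (r + 1) : ℝ)
    refine le_of_mul_le_mul_right ?_ hr
    rw [← h1', mul_assoc, ← h2']
    have hc : (0 : ℝ) ≤ ((M + r).choose r : ℝ) := by positivity
    have hc' : (0 : ℝ) ≤ ((M + d + r).choose r : ℝ) := by positivity
    calc ((M : ℝ) + d + r + 1) * ((M + d + r).choose r : ℝ)
        ≤ ((1 + (d : ℝ) / (M + 1)) * (M + r + 1)) * ((M + d + r).choose r : ℝ) :=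
          mul_le_mul_of_nonneg_right h3 hc'
      _ ≤ ((1 + (d : ℝ) / (M + 1)) * (M + r + 1)) *
          ((1 + (d : ℝ) / (M + 1)) ^ r * ((M + r).choose r : ℝ)) := by
          apply mul_le_mul_of_nonneg_left ih (by positivity)
      _ = _ := by ring



theorem rho_lt (d : ℕ) (hd : 3 ≤ d) :
    (1 + (d : ℝ) / (2 * d ^ 2 + 1)) ^ (d - 1) < 1.6488 := by
  have hd0 : (0 : ℝ) < d := by exact_mod_cast (show 0 < d by omega)
  set x : ℝ := (d : ℝ) / (2 * d ^ 2 + 1) with hx
  have hx0 : 0 ≤ x := by rw [hx]; positivity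
  have h1 : 1 + x ≤ Real.exp x := by linarith [Real.add_one_le_exp x]
  have h2 : ((1 + x) ^ (d - 1)) ^ 2 ≤ Real.exp 1 := by
    rw [← pow_mul]
    calc (1 + x) ^ ((d - 1) * 2) ≤ (Real.exp x) ^ ((d - 1) * 2) :=
          pow_le_pow_left₀ (by linarith) h1 _
      _ = Real.exp (((d - 1) * 2 : ℕ) * x) := by rw [Real.exp_nat_mul]
      _ ≤ Real.exp 1 := by
        apply Real.exp_le_exp.2
        rw [hx]
        push_cast [Nat.cast_sub (show 1 ≤ d by omega)]
        rw [← mul_div_assoc, div_le_one (by positivity)]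
        nlinarith
  have h3 := Real.exp_one_lt_d9
  have h4 : 0 ≤ (1 + x) ^ (d - 1) := by positivity
  by_contra h5
  rw [not_lt] at h5
  nlinarith

theorem num_ineq (d : ℕ) (hd : 3 ≤ d) :
    20 * (d : ℝ) / (20 * d + 1) * (2 * d + (1 + (d : ℝ) / (2 * d ^ 2 + 1)) ^ (d - 1) * (2 * d + 1 + 1 / 20)) <
      19 / 20 * (4 * d + (d - 1) + (d - 1) * ((2 * d ^ 2 + d) / (2 * d ^ 2 + 1))) := by
  rcases Nat.lt_or_ge d 10 with h | h
  · interval_cases d <;> norm_num
  · have hd0 : (10 : ℝ) ≤ d := by exact_mod_cast h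
    have h1 := rho_lt d hd
    set ρ : ℝ := (1 + (d : ℝ) / (2 * d ^ 2 + 1)) ^ (d - 1) with hρ
    have hρ0 : 0 ≤ ρ := by rw [hρ]; positivity
    have h2 : 20 * (d : ℝ) / (20 * d + 1) ≤ 1 := by
      rw [div_le_one (by positivity)]
      linarith
    have h3 : (0 : ℝ) ≤ 2 * d + ρ * (2 * d + 1 + 1 / 20) := by positivity
    have h4 : 1 ≤ (2 * (d : ℝ) ^ 2 + d) / (2 * d ^ 2 + 1) := by
      rw [le_div_iff₀ (by positivity)]
      linarith
    have h5 : ρ * (2 * d + 1 + 1 / 20) ≤ 1.6488 * (2 * d + 1 + 1 / 20) := by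
      apply mul_le_mul_of_nonneg_right h1.le
      positivity
    have h6 : ((d : ℝ) - 1) * 1 ≤ (d - 1) * ((2 * d ^ 2 + d) / (2 * d ^ 2 + 1)) := by
      apply mul_le_mul_of_nonneg_left h4
      linarith
    calc 20 * (d : ℝ) / (20 * d + 1) * (2 * d + ρ * (2 * d + 1 + 1 / 20))
        ≤ 1 * (2 * d + ρ * (2 * d + 1 + 1 / 20)) := mul_le_mul_of_nonneg_right h2 h3
      _ < _ := by linarith


/-- the indices of the part of `B` with a negative coordinate. -/
def D2 (r M : ℕ) : Finset (Fin r × ℕ × (Fin r → ℕ)) :=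
  ((univ : Finset (Fin r)) ×ˢ (Icc 1 2 ×ˢ A r (M + 1))).filter
    fun q => q.2.2 q.1 = 0 ∧ ∑ j, q.2.2 j + 1 ≤ M + q.2.1

theorem D2_sub (r M : ℕ) : D2 r M ⊆ D1 r 2 (M + 1) := by
  intro q hq
  unfold D2 at hq
  unfold D1
  rw [mem_filter] at hq ⊢
  exact ⟨hq.1, hq.2.1⟩

theorem S_first (r M M' : ℕ) (b : ℝ) (hb : 0 ≤ b) (hM : M ≤ M') :
    S r M' b (b * M) ≤ b * ((M + r).choose (r + 1) : ℕ) := by
  classical
  rw [← W_val, mul_sum]
  unfold S
  have hsub : A r M ⊆ A r M' := by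
    intro u hu
    rw [mem_A] at hu ⊢
    omega
  rw [← sum_subset hsub]
  · refine sum_le_sum fun u hu => ?_
    rw [mem_A] at hu
    have h1 : ∑ j, (u j : ℝ) ≤ M := by exact_mod_cast hu
    have h2 : 0 ≤ b * ((M : ℝ) - ∑ j, (u j : ℝ)) := mul_nonneg hb (by linarith)
    apply max_le
    · linarith
    · exact h2
  · intro u _ hu
    rw [mem_A, not_le] at hu
    have h1 : (M : ℝ) < ∑ j, (u j : ℝ) := by exact_mod_cast hu
    apply max_eq_right
    have h2 : 0 ≤ b * (∑ j, (u j : ℝ) - (M : ℝ)) := mul_nonneg hb (by linarith)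
    linarith

theorem S_second (r M d : ℕ) (b : ℝ) (hb : 0 ≤ b) (h : 1 ≤ b * (d + 1 / 20)) :
    S r (M + d) b (b * M + 1) ≤
      b * (((M + d + r).choose (r + 1) : ℕ) + 1 / 20 * ((M + d + r).choose r : ℕ)) := by
  classical
  rw [← W_val, ← card_A, card_eq_sum_ones]
  push_cast
  rw [mul_sum, ← sum_add_distrib, mul_sum]
  unfold S
  refine sum_le_sum fun u hu => ?_
  rw [mem_A] at hu
  have h1 : ∑ j, (u j : ℝ) ≤ M + d := by exact_mod_cast hu
  have h2 : 0 ≤ b * ((M : ℝ) + d - ∑ j, (u j : ℝ)) := mul_nonneg hb (by linarith)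
  apply max_le
  · linarith
  · linarith

theorem crit_explicit (d k : ℕ) (hd : 3 ≤ d) (hk : 2 ≤ k) (a : ℝ) (ha : 1 ≤ a) :
    Crit d k (d - 1) a (20 * (d : ℝ) / (20 * d + 1) * (a / d)) := by
  classical
  obtain ⟨s, rfl⟩ : ∃ s, d = s + 1 + 1 := ⟨d - 2, by omega⟩
  obtain ⟨d, hd'⟩ : ∃ d, d = s + 1 + 1 := ⟨_, rfl⟩
  rw [← hd'] at hd ⊢
  have hr : d - 1 = s + 1 := by omega
  rw [hr]
  have hnum := num_ineq d hd
  rw [hr] at hnum
  have hd0 : (0 : ℝ) < d := by exact_mod_cast (show 0 < d by omega)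
  have hd1 : (1 : ℝ) ≤ d := by exact_mod_cast (show 1 ≤ d by omega)
  have hsd : (s : ℝ) + 1 + 1 = d := by exact_mod_cast hd'.symm
  obtain ⟨w, hw⟩ : ∃ w : ℝ, w = a / d := ⟨_, rfl⟩
  obtain ⟨β, hβ⟩ : ∃ β : ℝ, β = 20 * (d : ℝ) / (20 * d + 1) := ⟨_, rfl⟩
  rw [← hβ] at hnum
  rw [← hw, ← hβ]
  have hw0 : 0 < w := by rw [hw]; positivity
  have hβ0 : 0 < β := by rw [hβ]; positivity
  obtain ⟨b, hb⟩ : ∃ b : ℝ, b = β * w := ⟨_, rfl⟩
  rw [← hb]
  have hb0 : 0 < b := by rw [hb]; positivity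
  obtain ⟨M, hM⟩ : ∃ M : ℕ, M = 2 * d ^ 2 := ⟨_, rfl⟩
  have hMr : (M : ℝ) = 2 * d ^ 2 := by rw [hM]; push_cast; ring
  have hM1 : 1 ≤ M := by
    rw [hM]
    have : 1 ≤ d ^ 2 := Nat.one_le_pow _ _ (by omega)
    omega
  obtain ⟨Δ, hΔ⟩ : ∃ Δ : ℝ, Δ = M / (20 * d + 1) := ⟨_, rfl⟩
  have hΔ0 : 0 ≤ Δ := by rw [hΔ]; positivity
  have hβM : β * M = M - Δ := by
    rw [hβ, hΔ]
    field_simp
    ring
  have hΔd : Δ * d ≤ 1 / 20 * M := by
    rw [hΔ, div_mul_eq_mul_div, div_le_iff₀ (by positivity)]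
    have : (0 : ℝ) ≤ M := by positivity
    nlinarith
  have hbd : 1 ≤ b * (d + 1 / 20) := by
    have : b * (d + 1 / 20) = a := by
      rw [hb, hβ, hw]
      field_simp
    rw [this]
    exact ha
  have hL : b * M = w * (M - Δ) := by
    rw [← hβM, hb]
    ring
  -- the sums over `B`
  have hB0 : 19 / 20 * ((M + (s + 1)).choose (s + 1 + 1) : ℝ) ≤
      ∑ u ∈ A (s + 1) (M - 1), ((M : ℝ) - Δ - ∑ j, (u j : ℝ)) := by
    apply simplex_sum (s + 1) M Δ hΔ0 hM1
    push_cast
    rw [hsd]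
    have : (0 : ℝ) ≤ s := by positivity
    linarith
  have hB1 : ∀ (i : Fin (s + 1)) (K : ℕ), M ≤ K → 19 / 20 * ((K + s + 1).choose (s + 1) : ℝ) ≤
      ∑ u ∈ (A (s + 1) K).filter (fun u => u i = 0), ((K : ℝ) + 1 - Δ - ∑ j, (u j : ℝ)) := by
    intro i K hK
    apply face_sum s K i Δ hΔ0
    have h1 : (M : ℝ) ≤ K := by exact_mod_cast hK
    have h2 : (0 : ℝ) ≤ s := by positivity
    have h3 : Δ * ((s : ℝ) + 1) ≤ Δ * d := mul_le_mul_of_nonneg_left (by linarith) hΔ0
    linarith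
  refine ⟨1, fun _ => b * M,
    (({0, 1} : Finset ℕ) ×ˢ A (s + 1) (M - 1)).image pos0 ∪ (D2 (s + 1) M).image neg1,
    S (s + 1) (M + d) b (b * M) + S (s + 1) (M + d) b (b * M + 1), ?_, ?_, ?_, ?_⟩
  · intro x y _
    exact le_rfl
  · intro p hp
    rw [mem_union, mem_image, mem_image] at hp
    rcases hp with ⟨q, hq, rfl⟩ | ⟨q, hq, rfl⟩
    · rw [mem_product, mem_insert, mem_singleton] at hq
      refine ⟨?_, ?_⟩
      · show q.1 ≤ 1
        omega
      · show needs k (fun j => (q.2 j : ℤ)) ≤ q.1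
        unfold needs
        rw [sum_eq_zero fun j _ => need_nonneg k (by omega) (q.2 j)]
        exact Nat.zero_le _
    · unfold D2 at hq
      rw [mem_filter, mem_product, mem_product, mem_Icc] at hq
      refine ⟨le_rfl, ?_⟩
      show needs k (Function.update (fun j => (q.2.2 j : ℤ)) q.1 (-(q.2.1 : ℤ))) ≤ 1
      unfold needs
      rw [sum_eq_single q.1]
      · rw [Function.update_self]
        exact need_neg k (by omega) _ (hq.1.2.1.2.trans hk)
      · intro j _ hj
        rw [Function.update_of_ne hj]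
        exact need_nonneg k (by omega) _
      · intro h
        exact absurd (mem_univ _) h
  · intro T' hT
    refine sum_pairs_le (s + 1) (M + d) b (b * M) hb0.le ?_ T' hT
    push_cast
    have : 0 ≤ b * (1 - 1 / 20) := by positivity
    linarith
  · have hdisj : Disjoint ((({0, 1} : Finset ℕ) ×ˢ A (s + 1) (M - 1)).image pos0)
        ((D2 (s + 1) M).image neg1) := by
      rw [disjoint_left]
      intro p hp hp'
      rw [mem_image] at hp hp'
      obtain ⟨q, hq, rfl⟩ := hp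
      obtain ⟨q', hq', h⟩ := hp'
      unfold D2 at hq'
      rw [mem_filter, mem_product, mem_product, mem_Icc] at hq'
      unfold neg1 pos0 at h
      rw [Prod.mk.injEq] at h
      have h3 := congrFun h.2 q'.1
      rw [Function.update_self] at h3
      have h4 := hq'.1.2.1.1
      have h5 : -(q'.2.1 : ℤ) = ((q.2 q'.1 : ℕ) : ℤ) := h3
      omega
    have hinj : Set.InjOn (neg1 (r := s + 1)) (D2 (s + 1) M : Set _) :=
      (neg1_inj (s + 1) 2 (M + 1)).mono (by exact_mod_cast D2_sub (s + 1) M)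
    rw [sum_union hdisj, sum_image (fun x _ y _ h => pos0_inj h), sum_image hinj]
    have e0 : 2 * (w * (19 / 20 * ((M + (s + 1)).choose (s + 1 + 1) : ℝ))) ≤
        ∑ q ∈ ({0, 1} : Finset ℕ) ×ˢ A (s + 1) (M - 1), (b * M - a / d *
        ∑ i, (((pos0 q).2 i : ℤ) : ℝ)) := by
      rw [sum_product, sum_pair (by norm_num)]
      have e1 : ∀ t : ℕ, w * (19 / 20 * ((M + (s + 1)).choose (s + 1 + 1) : ℝ)) ≤
          ∑ y ∈ A (s + 1) (M - 1), (b * M - a / d *
          ∑ i, (((pos0 (t, y)).2 i : ℤ) : ℝ)) := by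
        intro t
        refine (mul_le_mul_of_nonneg_left hB0 hw0.le).trans_eq ?_
        rw [mul_sum]
        refine sum_congr rfl fun u _ => ?_
        have : ∀ i, (((pos0 (t, u)).2 i : ℤ) : ℝ) = (u i : ℝ) := fun i => by
          simp [pos0]
        simp only [this]
        rw [hL, hw]
        ring
      linarith [e1 0, e1 1]
    have e2 : (s + 1) * (w * (19 / 20 * ((M + s + 1).choose (s + 1) : ℝ)) +
        w * (19 / 20 * ((M + 1 + s + 1).choose (s + 1) : ℝ))) ≤
        ∑ q ∈ D2 (s + 1) M, (b * M - a / d * ∑ i, (((neg1 q).2 i : ℤ) : ℝ)) := by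
      unfold D2
      rw [sum_filter, sum_product]
      have e4 : ∀ (i : Fin (s + 1)) (m : ℕ), 1 ≤ m → m ≤ 2 →
          w * (19 / 20 * ((M + (m - 1) + s + 1).choose (s + 1) : ℝ)) ≤
          ∑ u ∈ A (s + 1) (M + 1), if (u i = 0 ∧ ∑ j, u j + 1 ≤ M + m) then
            (b * M - a / d * ∑ j, (((neg1 (i, m, u)).2 j : ℤ) : ℝ)) else 0 := by
        intro i m hm1 hm2
        rw [← sum_filter]
        have hset : (A (s + 1) (M + 1)).filter (fun u => u i = 0 ∧ ∑ j, u j + 1 ≤ M + m) =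
            (A (s + 1) (M + (m - 1))).filter (fun u => u i = 0) := by
          ext u
          rw [mem_filter, mem_filter, mem_A, mem_A]
          constructor
          · rintro ⟨h1, h2, h3⟩
            exact ⟨by omega, h2⟩
          · rintro ⟨h1, h2⟩
            exact ⟨by omega, h2, by omega⟩
        rw [hset]
        refine (mul_le_mul_of_nonneg_left (hB1 i (M + (m - 1)) (by omega)) hw0.le).trans_eq ?_
        rw [mul_sum]
        refine sum_congr rfl fun u hu => ?_
        rw [mem_filter] at hu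
        have h5 : ∑ j, (((neg1 (i, m, u)).2 j : ℤ) : ℝ) = ∑ j, (u j : ℝ) - m := by
          rw [Fin.sum_univ_succAbove _ i, Fin.sum_univ_succAbove (fun j => (u j : ℝ)) i]
          simp only [neg1, Function.update_self]
          have h6 : ∀ j : Fin s, Function.update (fun j => (u j : ℤ)) i (-(m : ℤ)) (i.succAbove j) =
              (u (i.succAbove j) : ℤ) := by
            intro j
            rw [Function.update_of_ne (Fin.succAbove_ne i j)]
          simp only [h6]
          rw [hu.2]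
          push_cast
          ring
        rw [h5, hL, hw]
        push_cast [Nat.cast_sub hm1]
        ring
      have e3 : ∀ i : Fin (s + 1), (w * (19 / 20 * ((M + s + 1).choose (s + 1) : ℝ)) +
          w * (19 / 20 * ((M + 1 + s + 1).choose (s + 1) : ℝ))) ≤
          ∑ q ∈ Icc 1 2 ×ˢ A (s + 1) (M + 1),
          if (q.2 i = 0 ∧ ∑ j, q.2 j + 1 ≤ M + q.1) then
            (b * M - a / d * ∑ j, (((neg1 (i, q)).2 j : ℤ) : ℝ)) else 0 := by
        intro i
        rw [sum_product]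
        have : (Icc 1 2 : Finset ℕ) = {1, 2} := by decide
        rw [this, sum_pair (by norm_num)]
        exact add_le_add (e4 i 1 le_rfl (by norm_num)) (e4 i 2 (by norm_num) le_rfl)
      calc (s + 1) * (w * (19 / 20 * ((M + s + 1).choose (s + 1) : ℝ)) +
            w * (19 / 20 * ((M + 1 + s + 1).choose (s + 1) : ℝ)))
          = ∑ i : Fin (s + 1), (w * (19 / 20 * ((M + s + 1).choose (s + 1) : ℝ)) +
            w * (19 / 20 * ((M + 1 + s + 1).choose (s + 1) : ℝ))) := by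
            rw [sum_const, card_univ, Fintype.card_fin, nsmul_eq_mul]
            push_cast
            ring
        _ ≤ _ := sum_le_sum fun i _ => e3 i
    have v1 := S_first (s + 1) M (M + d) b hb0.le (by omega)
    have v2 := S_second (s + 1) M d b hb0.le hbd
    refine lt_of_lt_of_le ?_ (add_le_add e0 e2)
    refine lt_of_le_of_lt (add_le_add v1 v2) ?_
    -- the binomial coefficients
    obtain ⟨C0, hC0⟩ : ∃ C0 : ℝ, C0 = ((M + (s + 1)).choose (s + 1) : ℝ) := ⟨_, rfl⟩
    have hC0p : 0 < C0 := by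
      rw [hC0]
      exact_mod_cast Nat.choose_pos (by omega)
    obtain ⟨C1, hC1⟩ : ∃ C1 : ℝ, C1 = ((M + d + (s + 1)).choose (s + 1) : ℝ) := ⟨_, rfl⟩
    have hC1p : 0 ≤ C1 := by rw [hC1]; positivity
    have f1 : ((M + (s + 1)).choose (s + 1 + 1) : ℝ) = 2 * d * C0 := by
      have h1 := Nat.choose_succ_right_eq (M + (s + 1)) (s + 1)
      rw [Nat.add_sub_cancel] at h1
      have h2 : ((M + (s + 1)).choose (s + 1 + 1) : ℝ) * d = C0 * M := by
        rw [hC0, hd']
        exact_mod_cast h1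
      have h3 : ((M + (s + 1)).choose (s + 1 + 1) : ℝ) * d = (2 * d * C0) * d := by
        rw [h2, hMr]; ring
      exact mul_right_cancel₀ hd0.ne' h3
    have f2 : ((M + d + (s + 1)).choose (s + 1 + 1) : ℝ) = (2 * d + 1) * C1 := by
      have h1 := Nat.choose_succ_right_eq (M + d + (s + 1)) (s + 1)
      rw [Nat.add_sub_cancel] at h1
      have h2 : ((M + d + (s + 1)).choose (s + 1 + 1) : ℝ) * d = C1 * (M + d) := by
        rw [hC1]
        have : ((M + d + (s + 1)).choose (s + 1 + 1) : ℝ) * ((s + 1 + 1 : ℕ) : ℝ) =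
            ((M + d + (s + 1)).choose (s + 1) : ℝ) * ((M + d : ℕ) : ℝ) := by exact_mod_cast h1
        have hc : ((s + 1 + 1 : ℕ) : ℝ) = d := by rw [hd']
        rw [hc] at this
        rw [this]
        push_cast
        ring
      have h3 : ((M + d + (s + 1)).choose (s + 1 + 1) : ℝ) * d = ((2 * d + 1) * C1) * d := by
        rw [h2, hMr]; ring
      exact mul_right_cancel₀ hd0.ne' h3
    have f3 : ((M + 1 + s + 1).choose (s + 1) : ℝ) = (2 * d ^ 2 + d) / (2 * d ^ 2 + 1) * C0 := by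
      have h1 := Nat.choose_mul_succ_eq (M + (s + 1)) (s + 1)
      have h4 : M + (s + 1) + 1 - (s + 1) = M + 1 := by omega
      rw [h4] at h1
      have h5 : M + 1 + s + 1 = M + (s + 1) + 1 := by ring
      rw [h5]
      have h2 : C0 * ((M : ℝ) + (s + 1) + 1) = ((M + (s + 1) + 1).choose (s + 1) : ℝ) * (M + 1) := by
        rw [hC0]
        exact_mod_cast h1
      have hp : (0 : ℝ) < 2 * d ^ 2 + 1 := by positivity
      rw [div_mul_eq_mul_div, eq_div_iff hp.ne', ← hMr, ← h2, ← hsd]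
      ring
    have f4 : ((M + s + 1).choose (s + 1) : ℝ) = C0 := by rw [hC0]; rfl
    have f5 : C1 ≤ (1 + (d : ℝ) / (2 * d ^ 2 + 1)) ^ (s + 1) * C0 := by
      rw [hC1, hC0, ← hMr]
      exact choose_grow d (s + 1) M
    rw [f1, f2, f3, f4]
    obtain ⟨ρ, hρ⟩ : ∃ ρ : ℝ, ρ = (1 + (d : ℝ) / (2 * d ^ 2 + 1)) ^ (s + 1) := ⟨_, rfl⟩
    rw [← hρ] at f5 hnum
    obtain ⟨q, hq⟩ : ∃ q : ℝ, q = (2 * (d : ℝ) ^ 2 + d) / (2 * d ^ 2 + 1) := ⟨_, rfl⟩
    rw [← hq] at hnum ⊢
    rw [← hC1]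
    have g1 : b * (2 * d * C0) + b * ((2 * d + 1) * C1 + 1 / 20 * C1) ≤
        w * C0 * (β * (2 * d + ρ * (2 * d + 1 + 1 / 20))) := by
      have : (2 * (d : ℝ) + 1 + 1 / 20) * C1 ≤ (2 * d + 1 + 1 / 20) * (ρ * C0) :=
        mul_le_mul_of_nonneg_left f5 (by positivity)
      have h7 : b * ((2 * (d : ℝ) + 1 + 1 / 20) * C1) ≤ b * ((2 * d + 1 + 1 / 20) * (ρ * C0)) :=
        mul_le_mul_of_nonneg_left this hb0.le
      calc b * (2 * d * C0) + b * ((2 * d + 1) * C1 + 1 / 20 * C1)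
          = b * (2 * d * C0) + b * ((2 * (d : ℝ) + 1 + 1 / 20) * C1) := by ring
        _ ≤ b * (2 * d * C0) + b * ((2 * d + 1 + 1 / 20) * (ρ * C0)) := by linarith
        _ = _ := by rw [hb]; ring
    refine lt_of_le_of_lt g1 ?_
    have g2 := mul_lt_mul_of_pos_left hnum (mul_pos hw0 hC0p)
    refine lt_of_lt_of_eq g2 ?_
    rw [← hsd]
    ring

/-- every pair `d ≥ 3`, `k ≥ 2` is admissible at every exponent from `1` to `1 + 1 / (21 d²)`. -/
theorem adm_explicit (d k : ℕ) (hd : 3 ≤ d) (hk : 2 ≤ k) (a : ℝ) (h1 : 1 ≤ a)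
    (h2 : a ≤ 1 + 1 / (21 * (d : ℝ) ^ 2)) : Adm2 d k a := by
  have hd0 : (3 : ℝ) ≤ d := by exact_mod_cast hd
  have hd' : (0 : ℝ) < d := by linarith
  have hw : 0 < a / (d : ℝ) := by positivity
  refine adm_of_last_a d k (by omega) a _ (by positivity) ?_ ?_ (crit_explicit d k hd hk a h1)
  · have : 20 * (d : ℝ) / (20 * d + 1) < 1 := by
      rw [div_lt_one (by positivity)]
      linarith
    calc 20 * (d : ℝ) / (20 * d + 1) * (a / d) < 1 * (a / d) := mul_lt_mul_of_pos_right this hw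
      _ = _ := one_mul _
  · have e1 : ((d : ℝ) - 1) * (a / d) + 20 * (d : ℝ) / (20 * d + 1) * (a / d) =
        a * ((20 * d ^ 2 + d - 1) / (20 * d ^ 2 + d)) := by
      field_simp
      ring
    rw [e1]
    have e2 : (0 : ℝ) < 20 * d ^ 2 + d := by positivity
    have e3 : 0 ≤ (20 * (d : ℝ) ^ 2 + d - 1) / (20 * d ^ 2 + d) := by
      apply div_nonneg _ e2.le
      nlinarith
    have e4 : (1 + 1 / (21 * (d : ℝ) ^ 2)) * ((20 * (d : ℝ) ^ 2 + d - 1) / (20 * d ^ 2 + d)) < 1 := by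
      rw [← mul_div_assoc, div_lt_one e2]
      have e5 : (1 + 1 / (21 * (d : ℝ) ^ 2)) * (20 * (d : ℝ) ^ 2 + d - 1) =
          (20 * (d : ℝ) ^ 2 + d - 1) + (20 * (d : ℝ) ^ 2 + d - 1) / (21 * d ^ 2) := by ring
      rw [e5]
      have e6 : (20 * (d : ℝ) ^ 2 + d - 1) / (21 * d ^ 2) < 1 := by
        rw [div_lt_one (by positivity)]
        nlinarith
      linarith
    exact lt_of_le_of_lt (mul_le_mul_of_nonneg_right h2 e3) e4

end Vale.Agent.P018.R2.H803
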