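import Mathlib

/-! # P018, H803: lower bounds for `log d`, `5 ≤ d ≤ 127`, and the small degrees. -/

namespace Vale.Agent.P018.R2.H803

/-- `floor (1000 log d)` for `d = 5, ..., 127`. -/
def lt : List ℕ := [1609, 1791, 1945, 2079, 2197, 2302, 2397, 2484, 2564, 2639, 2708, 2772, 2833, 2890, 2944, 2995, 3044, 3091, 3135, 3178, 3218, 3258, 3295, 3332, 3367, 3401, 3433, 3465, 3496, 3526, 3555, 3583, 3610, 3637, 3663, 3688, 3713, 3737, 3761, 3784, 3806, 3828, 3850, 3871, 3891, 3912, 3931, 3951, 3970, 3988, 4007, 4025, 4043, 4060, 4077, 4094, 4110, 4127, 4143, 4158, 4174, 4189, 4204, 4219, 4234, 4248, 4262, 4276, 4290, 4304, 4317, 4330, 4343, 4356, 4369, 4382, 4394, 4406, 4418, 4430, 4442, 4454, 4465, 4477, 4488, 4499, 4510, 4521, 4532, 4543, 4553, 4564, 4574, 4584, 4595, 4605, 4615, 4624, 4634, 4644, 4653, 4663, 4672, 4682, 4691, 4700, 4709, 4718, 4727, 4736, 4744, 4753, 4762,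 4770, 4779, 4787, 4795, 4804, 4812, 4820, 4828, 4836, 4844]

theorem lt_ok : ∀ i < 123, 27182818286 ^ (lt.getD i 0) ≤
    (i + 5) ^ 1000 * 10 ^ (10 * lt.getD i 0) := by
  decide +kernel

/-- the lower bound. -/
theorem log_ge (i : ℕ) (hi : i < 123) :
    (lt.getD i 0 : ℝ) / 1000 ≤ Real.log ((i + 5 : ℕ) : ℝ) := by
  obtain ⟨n, hn⟩ : ∃ n : ℕ, n = lt.getD i 0 := ⟨_, rfl⟩
  have h1 := lt_ok i hi
  rw [← hn] at h1 ⊢
  have hd0 : (0 : ℝ) < ((i + 5 : ℕ) : ℝ) := by positivity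
  rw [Real.le_log_iff_exp_le hd0]
  have h2 : Real.exp ((n : ℝ) / 1000) ^ 1000 ≤ ((i + 5 : ℕ) : ℝ) ^ 1000 := by
    rw [← Real.exp_nat_mul]
    have e1 : ((1000 : ℕ) : ℝ) * ((n : ℝ) / 1000) = (n : ℝ) * 1 := by
      push_cast
      ring
    rw [e1, Real.exp_nat_mul]
    have h3 : Real.exp 1 ≤ 27182818286 / 10 ^ 10 := by
      have := Real.exp_one_lt_d9
      norm_num
      norm_num at this
      linarith
    have h4 : Real.exp 1 ^ n ≤ (27182818286 / 10 ^ 10 : ℝ) ^ n :=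
      pow_le_pow_left₀ (Real.exp_pos 1).le h3 n
    refine h4.trans ?_
    rw [div_pow, ← pow_mul, div_le_iff₀ (by positivity)]
    exact_mod_cast h1
  exact (pow_le_pow_iff_left₀ (Real.exp_pos _).le hd0.le (by norm_num)).1 h2

/-- for `5 ≤ d ≤ 53` the new range is contained in the old one. -/
theorem lt_small : ∀ i < 49, ∀ k < 27, 2 * k ≤ i + 5 → 7 * k < 2 * (i + 5) + 12 →
    16000000 * k < 4000000 * (i + 5) + (lt.getD i 0) ^ 2 + 8000 * lt.getD i 0 + 8000000 := by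
  decide +kernel

theorem small_sixteenth (d k : ℕ) (hd : d < 54)
    (h : (d : ℝ) / 4 + Real.log d ^ 2 / 16 + Real.log d / 2 + 1 / 2 ≤ k) :
    d ≤ 4 ∨ d < 2 * k ∨ 2 * d + 12 ≤ 7 * k := by
  by_contra hcon
  push Not at hcon
  obtain ⟨h1, h2, h3⟩ := hcon
  obtain ⟨i, rfl⟩ : ∃ i, d = i + 5 := ⟨d - 5, by omega⟩
  have h4 := lt_small i (by omega) k (by omega) h2 h3
  have h5 := log_ge i (by omega)
  obtain ⟨n, hn⟩ : ∃ n : ℕ, n = lt.getD i 0 := ⟨_, rfl⟩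
  rw [← hn] at h4 h5
  have h6 : (16000000 : ℝ) * k < 4000000 * ((i + 5 : ℕ) : ℝ) + (n : ℝ) ^ 2 + 8000 * n + 8000000 := by
    exact_mod_cast h4
  have h7 : (0 : ℝ) ≤ (n : ℝ) / 1000 := by positivity
  have h8 : ((n : ℝ) / 1000) ^ 2 ≤ Real.log ((i + 5 : ℕ) : ℝ) ^ 2 := pow_le_pow_left₀ h7 h5 2
  have h9 : ((n : ℝ) / 1000) ^ 2 = (n : ℝ) ^ 2 / 1000000 := by ring
  rw [h9] at h8
  linarith only [h, h6, h5, h8]

end Vale.Agent.P018.R2.H803
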