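import Vale.Agent.P018.R2.H803.Sum16
import Vale.Agent.P018.R2.H803.LogTab

/-! # P018, H803: the sum `2κ + min(κ, (4κ)^(-1/2)) + ∑ u_r (4κ)^(-1/r)` for `1/4 ≤ κ ≤ 1`. -/

namespace Vale.Agent.P018.R2.H803

open Finset Vale.Agent.P018.H867R

/-- `10^5` times the sum of the bounds for `u 3, ..., u (N+2)`. -/
def Cs (N : ℕ) : ℕ := ∑ j ∈ range N, cs.getD j 0

/-- `10^7` times a lower bound for `∑ c_r / (r + 1.39)`. -/
def aa (j : ℕ) : ℕ := (cs.getD j 0 * 10000) / (100 * (j + 3) + 139)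

def As (N : ℕ) : ℕ := ∑ j ∈ range N, aa j

theorem aa_le (j : ℕ) : (aa j : ℝ) / 10000000 ≤ (cs.getD j 0 : ℝ) / 100000 / ((j : ℝ) + 3 + 1.39) := by
  have h1 : aa j * (100 * (j + 3) + 139) ≤ cs.getD j 0 * 10000 := Nat.div_mul_le_self _ _
  have h2 : (aa j : ℝ) * (100 * ((j : ℝ) + 3) + 139) ≤ (cs.getD j 0 : ℝ) * 10000 := by
    exact_mod_cast h1
  have hj : (0 : ℝ) ≤ j := Nat.cast_nonneg j
  rw [div_div, div_le_div_iff₀ (by norm_num) (by positivity)]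
  linarith only [h2]

/-- one term. -/
theorem term_le (j : ℕ) (hj : j < 125) (y : ℝ) (hy : 1 ≤ y) (hl : Real.log y ≤ 1.39) :
    u (3 + j) * y ^ (-(1 / ((3 + j : ℕ) : ℝ))) ≤
      (cs.getD j 0 : ℝ) / 100000 - Real.log y * ((aa j : ℝ) / 10000000) := by
  have hy0 : 0 < y := by linarith only [hy]
  obtain ⟨l, hl0⟩ : ∃ l, l = Real.log y := ⟨_, rfl⟩
  have hlp : 0 ≤ l := by rw [hl0]; exact Real.log_nonneg hy
  rw [← hl0] at hl ⊢
  have hr0 : (0 : ℝ) < (j : ℝ) + 3 := by positivity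
  have h1 : y ^ (-(1 / ((3 + j : ℕ) : ℝ))) ≤ 1 - l / ((j : ℝ) + 3 + 1.39) := by
    rw [Real.rpow_def_of_pos hy0, ← hl0]
    have e1 : l * -(1 / ((3 + j : ℕ) : ℝ)) = -(l / ((j : ℝ) + 3)) := by
      push_cast
      rw [add_comm (3 : ℝ) j]
      ring
    rw [e1, Real.exp_neg]
    have e2 : 1 + l / ((j : ℝ) + 3) ≤ Real.exp (l / ((j : ℝ) + 3)) := by
      have := Real.add_one_le_exp (l / ((j : ℝ) + 3))
      linarith only [this]
    have e3 : (Real.exp (l / ((j : ℝ) + 3)))⁻¹ ≤ (1 + l / ((j : ℝ) + 3))⁻¹ :=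
      inv_anti₀ (by positivity) e2
    refine e3.trans ?_
    have e4 : (1 + l / ((j : ℝ) + 3))⁻¹ = 1 - l / ((j : ℝ) + 3 + l) := by
      field_simp
      ring
    rw [e4]
    have e5 : l / ((j : ℝ) + 3 + 1.39) ≤ l / ((j : ℝ) + 3 + l) :=
      div_le_div_of_nonneg_left hlp (by positivity) (by linarith only [hl])
    linarith only [e5]
  have h2 := u_le_cs j hj
  have h3 := aa_le j
  have h4 : 0 ≤ 1 - l / ((j : ℝ) + 3 + 1.39) := by
    rw [sub_nonneg, div_le_one (by positivity)]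
    linarith only [hl, hr0]
  calc u (3 + j) * y ^ (-(1 / ((3 + j : ℕ) : ℝ))) ≤
      (cs.getD j 0 : ℝ) / 100000 * (1 - l / ((j : ℝ) + 3 + 1.39)) :=
        mul_le_mul h2 h1 (Real.rpow_nonneg hy0.le _) (by positivity)
    _ = (cs.getD j 0 : ℝ) / 100000 - l * ((cs.getD j 0 : ℝ) / 100000 / ((j : ℝ) + 3 + 1.39)) := by
        ring
    _ ≤ _ := by linarith only [mul_le_mul_of_nonneg_left h3 hlp]

theorem sum_le (N : ℕ) (hN : N ≤ 125) (y : ℝ) (hy : 1 ≤ y) (hl : Real.log y ≤ 1.39) :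
    ∑ r ∈ Ico 3 (3 + N), u r * y ^ (-(1 / (r : ℝ))) ≤
      (Cs N : ℝ) / 100000 - Real.log y * ((As N : ℝ) / 10000000) := by
  rw [Finset.sum_Ico_eq_sum_range, Nat.add_sub_cancel_left]
  refine (sum_le_sum fun j hj => term_le j ((mem_range.1 hj).trans_le hN) y hy hl).trans ?_
  rw [sum_sub_distrib, ← sum_div, ← mul_sum, ← sum_div, Cs, As]
  push_cast
  exact le_rfl

/-- the part depending on `κ = q^2/4`. -/
theorem vertex (q A M : ℝ) (hq1 : 1 ≤ q) (hq2 : q ≤ 2) (h1 : 0.75 ≤ M)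
    (h2 : 1.92 - 0.83172 * A ≤ M) (h3 : 2.5 - 1.3862 * A ≤ M) :
    q ^ 2 / 2 + min (q ^ 2 / 4) (1 / q) - 1.3862 * (q - 1) * A ≤ M := by
  rcases le_total q 1.6 with h | h
  · have e1 : min (q ^ 2 / 4) (1 / q) ≤ q ^ 2 / 4 := min_le_left _ _
    have e2 : 0 ≤ (q - 1) * (1.6 - q) := mul_nonneg (by linarith only [hq1]) (by linarith only [h])
    have e3 : 0 ≤ (1.6 - q) * (M - 0.75) := mul_nonneg (by linarith only [h]) (by linarith only [h1])
    have e4 : 0 ≤ (q - 1) * (M - 1.92 + 0.83172 * A) :=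
      mul_nonneg (by linarith only [hq1]) (by linarith only [h2])
    nlinarith only [e1, e2, e3, e4]
  · have hq0 : 0 < q := by linarith only [hq1]
    have e1 : min (q ^ 2 / 4) (1 / q) ≤ 1 / q := min_le_right _ _
    have e2 : 0 ≤ (q - 1.6) * (2 - q) := mul_nonneg (by linarith only [h]) (by linarith only [hq2])
    have e3 : 1 / q ≤ 1.125 - 0.3125 * q := by
      rw [div_le_iff₀ hq0]
      linarith only [e2]
    have e4 : 0 ≤ (2 - q) * (M - 1.92 + 0.83172 * A) :=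
      mul_nonneg (by linarith only [hq2]) (by linarith only [h2])
    have e5 : 0 ≤ (q - 1.6) * (M - 2.5 + 1.3862 * A) :=
      mul_nonneg (by linarith only [h]) (by linarith only [h3])
    nlinarith only [e1, e2, e3, e4, e5, h, hq2]

theorem log_chord (q : ℝ) (hq1 : 1 ≤ q) (hq2 : q ≤ 2) : (q - 1) * Real.log 2 ≤ Real.log q := by
  have h := strictConcaveOn_log_Ioi.concaveOn.2 (show (1 : ℝ) ∈ Set.Ioi 0 by norm_num)
    (show (2 : ℝ) ∈ Set.Ioi 0 by norm_num) (show (0 : ℝ) ≤ 2 - q by linarith only [hq2])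
    (show (0 : ℝ) ≤ q - 1 by linarith only [hq1]) (by ring)
  simp only [smul_eq_mul, Real.log_one, mul_zero, zero_add] at h
  have e1 : (2 - q) * 1 + (q - 1) * 2 = q := by ring
  rwa [e1] at h

/-- the total for the first `N` terms. -/
theorem total_le (N : ℕ) (hN : N ≤ 125) (κ M : ℝ) (h1 : 1 / 4 ≤ κ) (h2 : κ ≤ 1)
    (hM1 : 0.75 ≤ M) (hM2 : 1.92 - 0.83172 * ((As N : ℝ) / 10000000) ≤ M)
    (hM3 : 2.5 - 1.3862 * ((As N : ℝ) / 10000000) ≤ M) :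
    2 * κ + min κ ((4 * κ) ^ (-(1 / 2 : ℝ))) +
      ∑ r ∈ Ico 3 (3 + N), u r * (4 * κ) ^ (-(1 / (r : ℝ))) ≤ (Cs N : ℝ) / 100000 + M := by
  have hκ0 : 0 < κ := by linarith only [h1]
  obtain ⟨y, hy⟩ : ∃ y, y = 4 * κ := ⟨_, rfl⟩
  have hy1 : 1 ≤ y := by rw [hy]; linarith only [h1]
  have hy4 : y ≤ 4 := by rw [hy]; linarith only [h2]
  have hy0 : 0 < y := by linarith only [hy1]
  obtain ⟨q, hq⟩ : ∃ q, q = Real.sqrt y := ⟨_, rfl⟩
  have hq2' : q ^ 2 = y := by rw [hq]; exact Real.sq_sqrt hy0.le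
  have hq1 : 1 ≤ q := by rw [hq, Real.one_le_sqrt]; exact hy1
  have hq2 : q ≤ 2 := by
    rw [hq, Real.sqrt_le_left (by norm_num)]
    norm_num
    exact hy4
  have hq0 : 0 < q := by linarith only [hq1]
  have hlog : Real.log y = 2 * Real.log q := by
    rw [← hq2', Real.log_pow]
    norm_num
  have hl2 := Real.log_two_gt_d9
  have hl2' := Real.log_two_lt_d9
  have hl1 : 1.3862 * (q - 1) ≤ Real.log y := by
    have e1 := log_chord q hq1 hq2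
    have e2 : 0.6931 * (q - 1) ≤ (q - 1) * Real.log 2 := by
      rw [mul_comm]
      exact mul_le_mul_of_nonneg_left (by linarith only [hl2]) (by linarith only [hq1])
    rw [hlog]
    linarith only [e1, e2]
  have hl3 : Real.log y ≤ 1.39 := by
    have e1 : Real.log q ≤ Real.log 2 := Real.log_le_log hq0 hq2
    rw [hlog]
    linarith only [e1, hl2']
  have hs := sum_le N hN y hy1 hl3
  have hA : (0 : ℝ) ≤ (As N : ℝ) / 10000000 := by positivity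
  have hv := vertex q ((As N : ℝ) / 10000000) M hq1 hq2 hM1 hM2 hM3
  have hm := mul_le_mul_of_nonneg_right hl1 hA
  have hp : y ^ (-(1 / 2 : ℝ)) = 1 / q := by
    rw [Real.rpow_neg hy0.le, ← Real.sqrt_eq_rpow, ← hq, one_div]
  have hκ : κ = q ^ 2 / 4 := by rw [hq2', hy]; ring
  rw [← hy, hp]
  have e3 : min κ (1 / q) = min (q ^ 2 / 4) (1 / q) := by rw [hκ]
  rw [e3]
  have e4 : 2 * κ = q ^ 2 / 2 := by rw [hκ]; ring
  rw [e4]
  linarith only [hs, hv, hm]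

/-- the check for `54 ≤ d ≤ 127`, multiplied by `16 * 10^6 * 1000`. -/
theorem mid_ok : ∀ N < 125, 51 ≤ N →
    160 * 1000 * Cs N + 12000000000 + 8000000 ≤
      4000000000 * (N + 3) + 1000 * (lt.getD (N - 2) 0) ^ 2 + 8000000 * (lt.getD (N - 2) 0) +
        8000000000 ∧
    160 * 1000 * Cs N + 30720000000 + 8000000 ≤
      4000000000 * (N + 3) + 1000 * (lt.getD (N - 2) 0) ^ 2 + 8000000 * (lt.getD (N - 2) 0) +
        8000000000 + 1330 * As N ∧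
    160 * 1000 * Cs N + 40000000000 + 8000000 ≤
      4000000000 * (N + 3) + 1000 * (lt.getD (N - 2) 0) ^ 2 + 8000000 * (lt.getD (N - 2) 0) +
        8000000000 + 2217 * As N := by
  decide +kernel

theorem mid_total (d : ℕ) (hd : 54 ≤ d) (hd2 : d < 128) (κ : ℝ) (h1 : 1 / 4 ≤ κ) (h2 : κ ≤ 1) :
    2 * κ + min κ ((4 * κ) ^ (-(1 / 2 : ℝ))) +
      ∑ r ∈ Ico 3 d, u r * (4 * κ) ^ (-(1 / (r : ℝ))) + 0.0005 ≤
      (d : ℝ) / 4 + Real.log d ^ 2 / 16 + Real.log d / 2 + 1 / 2 := by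
  obtain ⟨N, rfl⟩ : ∃ N, d = 3 + N := ⟨d - 3, by omega⟩
  obtain ⟨i, rfl⟩ : ∃ i, N = i + 2 := ⟨N - 2, by omega⟩
  have hm := mid_ok (i + 2) (by omega) (by omega)
  rw [Nat.add_sub_cancel] at hm
  have hL := log_ge i (by omega)
  have ed : ((i + 5 : ℕ) : ℝ) = ((3 + (i + 2) : ℕ) : ℝ) := by
    push_cast
    ring
  rw [ed] at hL
  obtain ⟨n, hn⟩ : ∃ n : ℕ, n = lt.getD i 0 := ⟨_, rfl⟩
  rw [← hn] at hm hL
  obtain ⟨C, hC⟩ : ∃ C : ℕ, C = Cs (i + 2) := ⟨_, rfl⟩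
  obtain ⟨A, hA⟩ : ∃ A : ℕ, A = As (i + 2) := ⟨_, rfl⟩
  rw [← hC, ← hA] at hm
  obtain ⟨m1, m2, m3⟩ := hm
  obtain ⟨D, hD⟩ : ∃ D : ℝ, D = ((3 + (i + 2) : ℕ) : ℝ) := ⟨_, rfl⟩
  have hD' : ((i + 2 : ℕ) : ℝ) + 3 = D := by
    rw [hD]
    push_cast
    ring
  have m1' : (160 : ℝ) * 1000 * C + 12000000000 + 8000000 ≤
      4000000000 * D + 1000 * (n : ℝ) ^ 2 + 8000000 * n + 8000000000 := by
    rw [← hD']
    exact_mod_cast m1
  have m2' : (160 : ℝ) * 1000 * C + 30720000000 + 8000000 ≤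
      4000000000 * D + 1000 * (n : ℝ) ^ 2 + 8000000 * n + 8000000000 + 1330 * A := by
    rw [← hD']
    exact_mod_cast m2
  have m3' : (160 : ℝ) * 1000 * C + 40000000000 + 8000000 ≤
      4000000000 * D + 1000 * (n : ℝ) ^ 2 + 8000000 * n + 8000000000 + 2217 * A := by
    rw [← hD']
    exact_mod_cast m3
  have h7 : (0 : ℝ) ≤ (n : ℝ) / 1000 := by positivity
  have h8 : ((n : ℝ) / 1000) ^ 2 ≤ Real.log ((3 + (i + 2) : ℕ) : ℝ) ^ 2 := pow_le_pow_left₀ h7 hL 2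
  have h9 : ((n : ℝ) / 1000) ^ 2 = (n : ℝ) ^ 2 / 1000000 := by ring
  rw [h9] at h8
  rw [← hD] at hL h8 ⊢
  have hA0 : (0 : ℝ) ≤ A := Nat.cast_nonneg A
  obtain ⟨M, hM⟩ : ∃ M : ℝ, M = D / 4 + Real.log D ^ 2 / 16 + Real.log D / 2 + 1 / 2 - 0.0005 -
    (C : ℝ) / 100000 := ⟨_, rfl⟩
  have ht := total_le (i + 2) (by omega) κ M h1 h2 (by rw [hM]; linarith only [m1', hL, h8])
    (by rw [hM, ← hA]; linarith only [m2', hL, h8, hA0])
    (by rw [hM, ← hA]; linarith only [m3', hL, h8, hA0])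
  rw [← hC] at ht
  linarith only [ht, hM]

theorem tail_le (d : ℕ) (κ : ℝ) (h1 : 1 / 4 ≤ κ) :
    ∑ r ∈ Ico 128 d, u r * (4 * κ) ^ (-(1 / (r : ℝ))) ≤ ∑ r ∈ Ico 128 d, u r := by
  refine sum_le_sum fun r _ => ?_
  have e1 : (4 * κ) ^ (-(1 / (r : ℝ))) ≤ 1 := by
    refine Real.rpow_le_one_of_one_le_of_nonpos (by linarith only [h1]) ?_
    rw [neg_nonpos]
    positivity
  have := mul_le_mul_of_nonneg_left e1 (u_pos r).le
  rwa [mul_one] at this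

theorem Cs_125 : Cs 125 ≤ 3525600 := by decide +kernel

theorem As_125 : 11950000 ≤ As 125 := by decide +kernel

theorem big_total (d : ℕ) (hd : 128 ≤ d) (κ : ℝ) (h1 : 1 / 4 ≤ κ) (h2 : κ ≤ 1) :
    2 * κ + min κ ((4 * κ) ^ (-(1 / 2 : ℝ))) +
      ∑ r ∈ Ico 3 d, u r * (4 * κ) ^ (-(1 / (r : ℝ))) + 0.0005 ≤
      (d : ℝ) / 4 + Real.log d ^ 2 / 16 + Real.log d / 2 + 1 / 2 := by
  have c1 : (Cs 125 : ℝ) ≤ 3525600 := by exact_mod_cast Cs_125
  have c2 : (11950000 : ℝ) ≤ As 125 := by exact_mod_cast As_125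
  have ht := total_le 125 le_rfl κ 0.93 h1 h2 (by norm_num) (by linarith only [c2])
    (by linarith only [c2])
  norm_num only at ht
  rw [← Finset.sum_Ico_consecutive _ (show 3 ≤ 128 by norm_num) hd]
  have h3 := tail_le d κ h1
  have h4 := sum_u' d hd
  have h5 := Phi_128
  have h6 : Phi d ≤ (d : ℝ) / 4 + Real.log d ^ 2 / 16 + Real.log d / 2 := by
    unfold Phi
    have : (0 : ℝ) ≤ 6 / d := by positivity
    linarith only [this]
  norm_num only at h5 ⊢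
  linarith only [ht, c1, h3, h4, h5, h6]

/-- the total, for every degree. -/
theorem total (d : ℕ) (hd : 54 ≤ d) (κ : ℝ) (h1 : 1 / 4 ≤ κ) (h2 : κ ≤ 1) :
    2 * κ + min κ ((4 * κ) ^ (-(1 / 2 : ℝ))) +
      ∑ r ∈ Ico 3 d, u r * (4 * κ) ^ (-(1 / (r : ℝ))) + 0.0005 ≤
      (d : ℝ) / 4 + Real.log d ^ 2 / 16 + Real.log d / 2 + 1 / 2 := by
  rcases lt_or_ge d 128 with h | h
  · exact mid_total d hd h κ h1 h2
  · exact big_total d h κ h1 h2

end Vale.Agent.P018.R2.H803
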