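import Vale.Agent.P018.H867R.Fin

/-! # P018, H803: the main theorems for an arbitrary range `R` of pairs (degree, exponent) for
which irreducible polynomials have a small tail. -/

namespace Vale.Agent.P018.R2.H803

open Polynomial Filter Topology Vale.Agent.P018.H867 Vale.Agent.P018.H867P
  Vale.Agent.P018.H867R Asymptotics

/-- `f ≠ 0`, and whenever `g ^ e` divides `f` over `ℚ`, `g` irreducible, `e ≥ 1`, then `e < k` and
`(deg g, ⌈k / e⌉)` is in the range `R`; multiple factors are allowed. -/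
def GoodR (R : ℕ → ℕ → Prop) (f : ℤ[X]) (k : ℕ) : Prop :=
  f ≠ 0 ∧ ∀ (g : ℚ[X]) (e : ℕ), Irreducible g → 1 ≤ e → g ^ e ∣ f.map (Int.castRingHom ℚ) →
    e < k ∧ R g.natDegree ⌈(k : ℚ) / e⌉₊

/-- the property of the range. -/
def TailR (R : ℕ → ℕ → Prop) : Prop :=
  ∀ f : ℤ[X], Irreducible (f.map (Int.castRingHom ℚ)) → ∀ k : ℕ, 2 ≤ k → R f.natDegree k →
    TailPow f k

variable {Rg : ℕ → ℕ → Prop}

/-- the induction on the degree. -/
theorem goodR_ind (hRg : TailR Rg) (k : ℕ) (hk : 2 ≤ k) : ∀ (N : ℕ) (f : ℤ[X]), f.natDegree ≤ N →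
    GoodR Rg f k →
    TailPow f k ∧ BallsP f k := by
  intro N
  induction N with
  | zero =>
    intro f hN hf
    exact ⟨tailPow_gt f hf.1 k (by omega), balls_const f hf.1 (by omega) k hk⟩
  | succ N ih =>
    intro f hN hf
    obtain ⟨hf0, hfac⟩ := hf
    have hinj : Function.Injective (Polynomial.map (Int.castRingHom ℚ)) :=
      Polynomial.map_injective _ (Int.cast_injective)
    have hdegmap : ∀ g : ℤ[X], (g.map (Int.castRingHom ℚ)).natDegree = g.natDegree := fun g =>
      natDegree_map_eq_of_injective (Int.cast_injective) g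
    have hm0 : f.map (Int.castRingHom ℚ) ≠ 0 := fun h => hf0 (hinj (by simpa using h))
    rcases Nat.eq_zero_or_pos f.natDegree with hd0 | hd0
    · exact ⟨tailPow_gt f hf0 k (by omega), balls_const f hf0 hd0 k hk⟩
    have hnu : ¬ IsUnit (f.map (Int.castRingHom ℚ)) := by
      intro h
      have h1 := natDegree_eq_zero_of_isUnit h
      rw [hdegmap] at h1
      omega
    obtain ⟨g, hg, hgd⟩ := WfDvdMonoid.exists_irreducible_factor hnu hm0
    have hfin : FiniteMultiplicity g (f.map (Int.castRingHom ℚ)) :=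
      FiniteMultiplicity.of_not_isUnit hg.not_isUnit hm0
    obtain ⟨b, hb, hgb⟩ := hfin.exists_eq_pow_mul_and_not_dvd
    set e := multiplicity g (f.map (Int.castRingHom ℚ)) with he
    have he1 : 1 ≤ e := by
      by_contra h
      have h0 : e = 0 := by omega
      rw [h0, pow_zero, one_mul] at hb
      exact hgb (hb ▸ hgd)
    have hg0 : g ≠ 0 := hg.ne_zero
    have hb0 : b ≠ 0 := by
      rintro rfl
      exact hgb (dvd_zero g)
    have hgdeg : 0 < g.natDegree := by
      by_contra h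
      have h0 : g.natDegree = 0 := by omega
      exact hg.not_isUnit (isUnit_iff_degree_eq_zero.2 (by rw [degree_eq_natDegree hg0, h0]; rfl))
    have hdeg : f.natDegree = e * g.natDegree + b.natDegree := by
      rw [← hdegmap f, hb, natDegree_mul (pow_ne_zero _ hg0) hb0, natDegree_pow]
    obtain ⟨hek, hrange⟩ := hfac g e hg he1 (by rw [hb]; exact dvd_mul_right _ _)
    have hcop : IsCoprime (g ^ e) b :=
      IsCoprime.pow_left ((Irreducible.coprime_iff_not_dvd hg).2 hgb)
    obtain ⟨G, s, hs, hG⟩ := sv_normal g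
    obtain ⟨B, t, ht, hB⟩ := sv_normal b
    have hsu : IsUnit (C (s : ℚ)) := isUnit_C.2 (isUnit_iff_ne_zero.2 (by exact_mod_cast hs))
    have htu : IsUnit (C (t : ℚ)) := isUnit_C.2 (isUnit_iff_ne_zero.2 (by exact_mod_cast ht))
    have hGg : Associated (G.map (Int.castRingHom ℚ)) g := by
      rw [hG]
      exact (associated_unit_mul_left g _ hsu)
    have hBb : Associated (B.map (Int.castRingHom ℚ)) b := by
      rw [hB]
      exact (associated_unit_mul_left b _ htu)
    have hdG : G.natDegree = g.natDegree := by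
      rw [← hdegmap G, hG, natDegree_mul hsu.ne_zero hg0]
      simp
    have hdB : B.natDegree = b.natDegree := by
      rw [← hdegmap B, hB, natDegree_mul htu.ne_zero hb0]
      simp
    have hGirr : Irreducible (G.map (Int.castRingHom ℚ)) := (hGg.irreducible_iff).2 hg
    have hB0 : B ≠ 0 := by
      rintro rfl
      rw [Polynomial.map_zero] at hBb
      exact hb0 (hBb.eq_zero_iff.1 rfl)
    have hcopAB : IsCoprime ((G ^ e).map (Int.castRingHom ℚ)) (B.map (Int.castRingHom ℚ)) := by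
      rw [Polynomial.map_pow, hG, mul_pow, hB]
      exact (isCoprime_mul_unit_left_left (hsu.pow e) _ _).2
        ((isCoprime_mul_unit_left_right htu _ _).2 hcop)
    obtain ⟨u, v, R, hR, hbez⟩ := int_bezout (G ^ e) B hcopAB
    have hABf : G ^ e * B = C (s ^ e * t) * f := by
      apply hinj
      simp only [Polynomial.map_mul, Polynomial.map_pow, Polynomial.map_C, hG, hB, hb]
      simp only [eq_intCast, Int.cast_mul, Int.cast_pow, C_mul, C_pow]
      ring
    have h2 : 2 ≤ ⌈(k : ℚ) / e⌉₊ := two_le_ceil k e he1 hek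
    have hTG : TailPow G ⌈(k : ℚ) / e⌉₊ :=
      hRg G hGirr _ h2 (by rw [hdG]; exact hrange)
    have hBG : BallsP G ⌈(k : ℚ) / e⌉₊ := balls_sep G _ h2 hGirr.squarefree
    have hBW : GoodR Rg B k := by
      refine ⟨hB0, fun h j hh hj hd => hfac h j hh hj ?_⟩
      rw [hb]
      exact (hd.trans hBb.dvd).trans (dvd_mul_left b _)
    have hlt : B.natDegree ≤ N := by
      have : 0 < e * g.natDegree := Nat.mul_pos he1 hgdeg
      omega
    obtain ⟨hT, hBa⟩ := ih B hlt hBW
    exact ⟨tailPow_split f (G ^ e) B u v R (s ^ e * t) hR hABf hbez k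
        (tailPow_pow G k e he1 hTG) hT,
      balls_split f (G ^ e) B u v R (s ^ e * t) hR (mul_ne_zero (pow_ne_zero _ hs) ht) hABf hbez
        k hk (balls_pow G k e he1 hBG) hBa⟩

/-- one polynomial. -/
theorem main_oneR (hRg : TailR Rg) (f : ℤ[X]) (k : ℕ) (hk : 2 ≤ k) (hf : GoodR Rg f k)
    (hloc : ∀ p : ℕ, p.Prime → rho f (p ^ k) < p ^ k) :
    Multipliable (fun p : Nat.Primes => 1 - (rho f ((p : ℕ) ^ k) : ℝ) / ((p : ℕ) : ℝ) ^ k) ∧
    0 < density f k ∧
    ∃ δ C : ℝ, 0 < δ ∧ ∀ X : ℕ, 1 ≤ X →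
      |(countPF f k X : ℝ) - density f k * X| ≤ C * (X : ℝ) ^ (1 - δ) := by
  classical
  set B : ℕ → ℕ → Prop := fun p n => (p : ℤ) ^ k ∣ f.eval (n : ℤ) with hB
  obtain ⟨⟨ε, δ, C, hε, hε1, hδ, hC, hC'⟩, D, hD⟩ := goodR_ind hRg k hk f.natDegree f le_rfl hf
  have hrB : ∀ p : ℕ, rB B k p = rho f (p ^ k) := by
    intro p
    unfold rB rho
    refine card_filter_eq _ _ _ fun n => ?_
    simp only [hB]
    push_cast
    rfl
  have hdB : dB B k = density f k := by
    unfold dB density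
    simp only [hrB]
  have hcB : ∀ X : ℕ, cB B X = countPF f k X := fun X => by
    unfold cB countPF
    exact card_filter_eq _ _ _ fun n => Iff.rfl
  have htB : ∀ X : ℕ, H867S.tB2 B ε X = tail2 f k ε X := fun X => by
    unfold H867S.tB2 tail2
    exact card_filter_eq _ _ _ fun n => Iff.rfl
  obtain ⟨h1, h2, δ', C', hδ', h3⟩ := abs_main (B := B) hk hC hε hε1 hδ hD
    (fun p hp => by rw [hrB]; exact hloc p hp) (fun X hX => by rw [htB]; exact hC' X hX)
  rw [hdB] at h2
  simp only [hrB] at h1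
  refine ⟨h1, h2, δ', C', hδ', fun X hX => ?_⟩
  rw [← hcB, ← hdB]
  exact h3 X hX

/-- several polynomials. -/
theorem main_familyR (hRg : TailR Rg) {m : ℕ} (hm : 0 < m) (f : Fin m → ℤ[X]) (k : Fin m → ℕ)
    (hk : ∀ i, 2 ≤ k i) (hf : ∀ i, GoodR Rg (f i) (k i))
    (hloc : ∀ p : ℕ, p.Prime → rhoS f k p < p ^ topExp k) :
    Multipliable (fun p : Nat.Primes => 1 - (rhoS f k p : ℝ) / ((p : ℕ) : ℝ) ^ topExp k) ∧
    0 < densityS f k ∧
    ∃ δ C : ℝ, 0 < δ ∧ ∀ X : ℕ, 1 ≤ X →
      |(countS f k X : ℝ) - densityS f k * X| ≤ C * (X : ℝ) ^ (1 - δ) := by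
  classical
  set B : ℕ → ℕ → Prop := fun p n => ∃ i, (p : ℤ) ^ k i ∣ (f i).eval (n : ℤ) with hB
  have hle : ∀ i, k i ≤ topExp k := fun i => Finset.le_sup (f := k) (Finset.mem_univ i)
  have hK : 2 ≤ topExp k := (hk ⟨0, hm⟩).trans (hle _)
  have hind : ∀ i, TailPow (f i) (k i) ∧ BallsP (f i) (k i) := fun i =>
    goodR_ind hRg (k i) (hk i) (f i).natDegree (f i) le_rfl (hf i)
  obtain ⟨ε, δ, C, hε, hε1, hδ, hC, htail⟩ := tail_familyW hm f k fun i => (hind i).1
  obtain ⟨D, hD⟩ := balls_familyW f k fun i => (hind i).2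
  have hrB : ∀ p : ℕ, rB B (topExp k) p = rhoS f k p := fun p => by
    unfold rB rhoS
    exact card_filter_eq _ _ _ fun n => Iff.rfl
  have hdB : dB B (topExp k) = densityS f k := by
    unfold dB densityS
    simp only [hrB]
  have hcB : ∀ X : ℕ, cB B X = countS f k X := by
    intro X
    unfold cB countS
    refine card_filter_eq _ _ _ fun n => ?_
    simp only [hB, PowerFree, not_exists]
    exact ⟨fun h i p hp => h p hp i, fun h p hp i => h i p hp⟩
  obtain ⟨h1, h2, δ', C', hδ', h3⟩ := abs_main (B := B) hK hC hε hε1 hδ hD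
    (fun p hp => by rw [hrB]; exact hloc p hp) htail
  rw [hdB] at h2
  simp only [hrB] at h1
  refine ⟨h1, h2, δ', C', hδ', fun X hX => ?_⟩
  rw [← hcB, ← hdB]
  exact h3 X hX

/-- irreducible polynomials. -/
theorem goodR_of_irr (f : ℤ[X]) (k : ℕ) (hk : 2 ≤ k)
    (hirr : Irreducible (f.map (Int.castRingHom ℚ))) (hr : Rg f.natDegree k) :
    GoodR Rg f k := by
  have hf0 : f ≠ 0 := by
    rintro rfl
    simp at hirr
  refine ⟨hf0, fun g e hg he hgd => ?_⟩
  have hgd1 : g ∣ f.map (Int.castRingHom ℚ) := (dvd_pow_self g (by omega)).trans hgd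
  have h1 : Associated g (f.map (Int.castRingHom ℚ)) := hg.associated_of_dvd hirr hgd1
  have h2 : g.natDegree = (f.map (Int.castRingHom ℚ)).natDegree :=
    natDegree_eq_of_degree_eq (degree_eq_degree_of_associated h1)
  have he1 : e = 1 := by
    by_contra h
    have h3 : g ^ 2 ∣ f.map (Int.castRingHom ℚ) := (pow_dvd_pow g (by omega)).trans hgd
    have h4 := hirr.squarefree g (by rw [← sq]; exact h3)
    exact hg.not_isUnit h4
  subst he1
  refine ⟨by omega, ?_⟩
  rw [h2, natDegree_map_eq_of_injective (RingHom.injective_int _)]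
  simpa using hr

end Vale.Agent.P018.R2.H803
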