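import Vale.Agent.P018.R2.H803.Adm16
import Vale.Agent.P018.R2.H803.Main16

/-! # P018, H803: the range. -/

namespace Vale.Agent.P018.R2.H803

open Polynomial Filter Topology Vale.Agent.P018.H867 Vale.Agent.P018.H867P
  Vale.Agent.P018.H867R

/-- the pairs (degree, exponent) that are treated. -/
def InRangeX (d k : ℕ) : Prop :=
  d ≤ 4 ∨ d < 2 * k ∨ 2 * d + 12 ≤ 7 * k ∨
    (d : ℝ) / 4 + Real.log d ^ 2 / 16 + Real.log d / 2 + 1 / 2 ≤ k

/-- `f ≠ 0`, and whenever `g ^ e` divides `f` over `ℚ`, `g` irreducible, `e ≥ 1`, then `e < k` and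
`(deg g, ⌈k / e⌉)` is in the range; multiple factors are allowed. -/
def GoodX (f : ℤ[X]) (k : ℕ) : Prop :=
  f ≠ 0 ∧ ∀ (g : ℚ[X]) (e : ℕ), Irreducible g → 1 ≤ e → g ^ e ∣ f.map (Int.castRingHom ℚ) →
    e < k ∧ InRangeX g.natDegree ⌈(k : ℚ) / e⌉₊

theorem inRangeX_of_W (d k : ℕ) (h : InRangeW d k) : InRangeX d k := by
  rcases h with h | h | h | h
  · exact Or.inl h
  · exact Or.inr (Or.inl h)
  · exact Or.inr (Or.inr (Or.inl h))
  · refine Or.inr (Or.inr (Or.inr ?_))
    have h1 := sq_nonneg (Real.log (d : ℝ) - 4)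
    nlinarith only [h, h1]

theorem inRangeX_cases (d k : ℕ) (h : InRangeX d k) :
    InRange d k ∨ (54 ≤ d ∧ bnd d ≤ k) := by
  rcases h with h | h | h | h
  · exact Or.inl (Or.inl h)
  · exact Or.inl (Or.inr (Or.inl h))
  · exact Or.inl (Or.inr (Or.inr (Or.inl h)))
  · rcases lt_or_ge d 54 with h1 | h1
    · rcases small_sixteenth d k h1 h with h2 | h2 | h2
      · exact Or.inl (Or.inl h2)
      · exact Or.inl (Or.inr (Or.inl h2))
      · exact Or.inl (Or.inr (Or.inr (Or.inl h2)))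
    · exact Or.inr ⟨h1, h⟩

/-- irreducible polynomials. -/
theorem tailX : TailR InRangeX := by
  intro f hirr k hk hr
  rcases inRangeX_cases _ _ hr with h | ⟨h1, h2⟩
  · exact tailPow_irr f hirr k hk h
  have hf0 : f ≠ 0 := by
    rintro rfl
    simp at hirr
  rcases lt_or_ge f.natDegree k with h | h
  · exact tailPow_gt f hf0 k h
  have hadm : ∀ a : ℝ, 1 ≤ a → a ≤ (f.natDegree : ℝ) / k → K2.Adm2 f.natDegree k a :=
    fun a ha ha2 => adm2_sixteenth f.natDegree k h1 h h2 a ha ha2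
  have hk0 : (0 : ℝ) < k := by exact_mod_cast (by omega : 0 < k)
  have hone : K2.Adm2 f.natDegree k 1 := by
    refine hadm 1 le_rfl ?_
    rw [le_div_iff₀ hk0, one_mul]
    exact_mod_cast h
  have hnear : NearOne f k := nearOne_of_adm f hirr k hk (by omega) hone
  rcases lt_or_ge k f.natDegree with h3 | h3
  · exact tailPow_of_hpp f hirr k hk (by omega) (hpp_of_hp f k
      (hp_of_fin f k hk h3 fun a ha ha2 => K2.fin_near2 f hirr k hk h3 a ha (hadm a ha ha2)) hnear)
  · exact tailPow_of_hpp f hirr k hk (by omega) (hpp_of_near f k hk h3 hnear)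

end Vale.Agent.P018.R2.H803
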