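import Vale.Agent.P018.H867R.Sum

/-! # P018, H803: `∑_{128 ≤ r < d} (4 / binom(2r, r-1))^(1/r)`, with the constants `1/16` and `1/2`. -/

namespace Vale.Agent.P018.R2.H803

open Finset Vale.Agent.P018.H867R

theorem base64 : 1000 * 16 ^ 64 * (Nat.factorial 64) ^ 4 ≤ 3154 * 64 * (Nat.factorial 128) ^ 2 := by
  decide +kernel

/-- `1000 * 16^n ≤ 3154 n binom(2n, n)^2` for `n ≥ 64`. -/
theorem sixteen_pow' (n : ℕ) (hn : 64 ≤ n) :
    1000 * 16 ^ n ≤ 3154 * n * n.centralBinom ^ 2 := by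
  induction n, hn using Nat.le_induction with
  | base =>
    have h1 : Nat.centralBinom 64 * (Nat.factorial 64 * Nat.factorial 64) = Nat.factorial 128 := by
      have := Nat.choose_mul_factorial_mul_factorial (n := 128) (k := 64) (by norm_num)
      rw [Nat.centralBinom, ← this, show 128 - 64 = 64 by norm_num, show 2 * 64 = 128 by norm_num,
        mul_assoc]
    have h2 := base64
    rw [← h1] at h2
    have h3 : 1000 * 16 ^ 64 * (Nat.factorial 64) ^ 4 ≤
        (3154 * 64 * (Nat.centralBinom 64) ^ 2) * (Nat.factorial 64) ^ 4 := by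
      calc 1000 * 16 ^ 64 * (Nat.factorial 64) ^ 4 ≤
          3154 * 64 * (Nat.centralBinom 64 * (Nat.factorial 64 * Nat.factorial 64)) ^ 2 := h2
        _ = _ := by ring
    exact Nat.le_of_mul_le_mul_right h3 (by positivity)
  | succ n hn ih =>
    have h1 := Nat.succ_mul_centralBinom_succ n
    have h2 : ((n + 1) * (n + 1).centralBinom) ^ 2 = (2 * (2 * n + 1) * n.centralBinom) ^ 2 := by
      rw [h1]
    have h3 : (n + 1) * (1000 * 16 ^ (n + 1)) ≤
        (n + 1) * (3154 * (n + 1) * (n + 1).centralBinom ^ 2) := by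
      calc (n + 1) * (1000 * 16 ^ (n + 1)) = 16 * (n + 1) * (1000 * 16 ^ n) := by ring
        _ ≤ 16 * (n + 1) * (3154 * n * n.centralBinom ^ 2) := Nat.mul_le_mul_left _ ih
        _ = (16 * (3154 * n * (n + 1))) * n.centralBinom ^ 2 := by ring
        _ ≤ (4 * 3154 * (2 * n + 1) ^ 2) * n.centralBinom ^ 2 := by
            apply Nat.mul_le_mul_right
            nlinarith
        _ = 3154 * (2 * (2 * n + 1) * n.centralBinom) ^ 2 := by ring
        _ = 3154 * ((n + 1) * (n + 1).centralBinom) ^ 2 := by rw [h2]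
        _ = (n + 1) * (3154 * (n + 1) * (n + 1).centralBinom ^ 2) := by ring
    exact Nat.le_of_mul_le_mul_left h3 (Nat.succ_pos n)

/-- `4^r r ≤ 1.776 √r (r+1) binom(2r, r-1)`. -/
theorem cb_lower' (r : ℕ) (hr : 64 ≤ r) :
    (4 : ℝ) ^ r * r ≤ 1.776 * Real.sqrt r * ((r + 1) * cb r) := by
  have hr0 : (0 : ℝ) < r := by exact_mod_cast (show 0 < r by omega)
  have h1 : (1000 : ℝ) * 16 ^ r ≤ 3154 * r * (r.centralBinom : ℝ) ^ 2 := by
    exact_mod_cast sixteen_pow' r hr
  have h2 := cb_mul r (by omega)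
  have h3 : ((4 : ℝ) ^ r * r) ^ 2 ≤ (1.776 * Real.sqrt r * ((r + 1) * cb r)) ^ 2 := by
    calc ((4 : ℝ) ^ r * r) ^ 2 = 16 ^ r * (r : ℝ) ^ 2 := by
          rw [mul_pow, ← pow_mul, mul_comm r 2, pow_mul]
          norm_num
      _ ≤ (3.154 * r * (r.centralBinom : ℝ) ^ 2) * (r : ℝ) ^ 2 :=
          mul_le_mul_of_nonneg_right (by linarith only [h1]) (sq_nonneg _)
      _ = 3.154 * r * ((r.centralBinom : ℝ) * r) ^ 2 := by ring
      _ = 3.154 * r * (cb r * (r + 1)) ^ 2 := by rw [h2]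
      _ = 3.154 * (Real.sqrt r) ^ 2 * (cb r * (r + 1)) ^ 2 := by rw [Real.sq_sqrt hr0.le]
      _ = 3.154 * ((Real.sqrt r) ^ 2 * (cb r * (r + 1)) ^ 2) := by ring
      _ ≤ 1.776 ^ 2 * ((Real.sqrt r) ^ 2 * (cb r * (r + 1)) ^ 2) :=
          mul_le_mul_of_nonneg_right (by norm_num) (by positivity)
      _ = (1.776 * Real.sqrt r * ((r + 1) * cb r)) ^ 2 := by ring
  have hcb := cb_pos r
  exact (pow_le_pow_iff_left₀ (by positivity) (by positivity) (by norm_num)).1 h3

/-- the bound for large `r`. -/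
theorem u_le' (r : ℕ) (hr : 64 ≤ r) (x : ℝ) (hx0 : 0 ≤ x) (hx1 : x ≤ 1)
    (hx : Real.log 7.104 + Real.log r / 2 + 1 / r ≤ x * r) : u r ≤ 1 / 4 * (1 + x + x ^ 2) := by
  have hr0 : (0 : ℝ) < r := by exact_mod_cast (show 0 < r by omega)
  have hcb := cb_pos r
  refine u_le_of_pow r (by omega) _ (by positivity) ?_
  have h1 : Real.exp x ≤ 1 + x + x ^ 2 := by
    have := Real.abs_exp_sub_one_sub_id_le (x := x) (by rw [abs_of_nonneg hx0]; exact hx1)
    rw [abs_le] at this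
    linarith only [this.2]
  have h2 : 7.104 * Real.sqrt r * (1 + 1 / r) ≤ Real.exp x ^ r := by
    rw [← Real.exp_nat_mul, mul_comm (r : ℝ) x]
    refine le_trans ?_ (Real.exp_le_exp.2 hx)
    rw [Real.exp_add, Real.exp_add, Real.exp_log (by norm_num)]
    have e1 : Real.exp (Real.log r / 2) = Real.sqrt r := by
      rw [Real.sqrt_eq_rpow, Real.rpow_def_of_pos hr0]
      congr 1
      ring
    rw [e1]
    have e2 : 1 + 1 / (r : ℝ) ≤ Real.exp (1 / r) := by
      have := Real.add_one_le_exp (1 / (r : ℝ))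
      linarith only [this]
    exact mul_le_mul_of_nonneg_left e2 (by positivity)
  have h3 : 7.104 * Real.sqrt r * (1 + 1 / r) ≤ (1 + x + x ^ 2) ^ r :=
    h2.trans (pow_le_pow_left₀ (Real.exp_pos _).le h1 r)
  have h4 := cb_lower' r hr
  have h5 : (4 : ℝ) ^ r * 4 ≤ (1 + x + x ^ 2) ^ r * cb r := by
    have h6 : (4 : ℝ) ^ r * 4 * r ≤ (1 + x + x ^ 2) ^ r * cb r * r := by
      calc (4 : ℝ) ^ r * 4 * r = 4 * (4 ^ r * r) := by ring
        _ ≤ 4 * (1.776 * Real.sqrt r * ((r + 1) * cb r)) :=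
            mul_le_mul_of_nonneg_left h4 (by norm_num)
        _ = (7.104 * Real.sqrt r * (1 + 1 / r)) * (cb r * r) := by
            field_simp
            ring
        _ ≤ (1 + x + x ^ 2) ^ r * (cb r * r) := mul_le_mul_of_nonneg_right h3 (by positivity)
        _ = _ := by ring
    exact le_of_mul_le_mul_right h6 hr0
  rw [mul_pow, one_div, inv_pow, mul_assoc, inv_mul_eq_div, le_div_iff₀ (by positivity)]
  linarith only [h5]

theorem log_7 : Real.log 7.104 ≤ 1.9675 := by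
  have hl2' := Real.log_two_lt_d9
  have h8 : Real.log 8 = 3 * Real.log 2 := by
    rw [show (8 : ℝ) = 2 ^ 3 by norm_num, Real.log_pow]
    norm_num
  have h1 := Real.one_sub_inv_le_log_of_pos (x := (8 : ℝ) / 7.104) (by norm_num)
  rw [Real.log_div (by norm_num) (by norm_num), h8] at h1
  norm_num at h1 ⊢
  linarith only [h1, hl2']

/-- the comparison function. -/
noncomputable def Phi (d : ℝ) : ℝ := d / 4 + Real.log d ^ 2 / 16 + Real.log d / 2 - 6 / d

/-- one step. -/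
theorem u_step' (r : ℕ) (hr : 128 ≤ r) : u r ≤ Phi ((r : ℝ) + 1) - Phi r := by
  have hr' : (128 : ℝ) ≤ r := by exact_mod_cast hr
  have hr0 : (0 : ℝ) < r := by linarith only [hr']
  have hl2 := Real.log_two_gt_d9
  have hl2' := Real.log_two_lt_d9
  have h128 : Real.log 128 = 7 * Real.log 2 := by
    rw [show (128 : ℝ) = 2 ^ 7 by norm_num, Real.log_pow]
    norm_num
  obtain ⟨L, hL⟩ : ∃ L, L = Real.log r := ⟨_, rfl⟩
  have hL1 : 4.852 ≤ L := by
    have : Real.log 128 ≤ Real.log r := Real.log_le_log (by norm_num) hr'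
    rw [hL]
    linarith only [this, h128, hl2]
  -- `s = √(r/128)`
  obtain ⟨s, hs⟩ : ∃ s : ℝ, s = Real.sqrt (r / 128) := ⟨_, rfl⟩
  have hs2 : s ^ 2 * 128 = r := by
    rw [hs, Real.sq_sqrt (by positivity)]
    field_simp
  have hs1 : 1 ≤ s := by
    rw [hs, Real.one_le_sqrt, le_div_iff₀ (by norm_num)]
    linarith only [hr']
  have hL2 : L ≤ 2.8522 + 2 * s := by
    have h1 : Real.log s ≤ s - 1 := Real.log_le_sub_one_of_pos (by linarith only [hs1])
    have h2 : Real.log r = 2 * Real.log s + Real.log 128 := by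
      rw [← hs2, Real.log_mul (by positivity) (by norm_num), Real.log_pow]
      norm_num
    rw [hL, h2, h128]
    linarith only [h1, hl2']
  have hinv : 1 / (r : ℝ) ≤ 1 / 128 := one_div_le_one_div_of_le (by norm_num) hr'
  have hinv0 : 0 < 1 / (r : ℝ) := by positivity
  have h7 := log_7
  have h70 : 0 < Real.log 7.104 := Real.log_pos (by norm_num)
  obtain ⟨z, hz⟩ : ∃ z, z = Real.log 7.104 + L / 2 + 1 / (r : ℝ) := ⟨_, rfl⟩
  have hz0 : 0 < z := by rw [hz]; linarith only [hL1, hinv0, h70]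
  have hz1 : z ≤ 1.9675 + L / 2 + 1 / r := by rw [hz]; linarith only [h7]
  have hz2 : z ≤ 3.4015 + s := by linarith only [hz1, hL2, hinv]
  obtain ⟨x, hx⟩ : ∃ x, x = z / r := ⟨_, rfl⟩
  have hx0 : 0 ≤ x := by rw [hx]; positivity
  have hxr : x * r = z := by rw [hx]; field_simp
  have hx1 : x ≤ 1 := by
    rw [hx, div_le_one hr0, ← hs2]
    nlinarith only [hz2, hs1]
  have h1 := u_le' r (by omega) x hx0 hx1 (by rw [hxr, hz, hL])
  have h2 : 1 / ((r : ℝ) + 1) ≤ Real.log ((r : ℝ) + 1) - L := by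
    have e1 := Real.one_sub_inv_le_log_of_pos (x := ((r : ℝ) + 1) / r) (by positivity)
    rw [Real.log_div (by positivity) hr0.ne', ← hL] at e1
    refine le_trans (le_of_eq ?_) e1
    field_simp
    ring
  have h3 : 2 * L * (1 / ((r : ℝ) + 1)) ≤ Real.log ((r : ℝ) + 1) ^ 2 - L ^ 2 := by
    have e1 : Real.log ((r : ℝ) + 1) ^ 2 - L ^ 2 =
        (Real.log ((r : ℝ) + 1) - L) * (Real.log ((r : ℝ) + 1) + L) := by ring
    have e2 : 0 < 1 / ((r : ℝ) + 1) := by positivity
    have e3 : L ≤ Real.log ((r : ℝ) + 1) := by linarith only [h2, e2]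
    rw [e1]
    calc 2 * L * (1 / ((r : ℝ) + 1)) = (1 / ((r : ℝ) + 1)) * (2 * L) := by ring
      _ ≤ (Real.log ((r : ℝ) + 1) - L) * (Real.log ((r : ℝ) + 1) + L) :=
          mul_le_mul h2 (by linarith only [e3]) (by linarith only [hL1]) (by linarith only [h2, e2])
  have h4 : (x + x ^ 2) / 4 ≤ (L / 8 + 1 / 2) * (1 / ((r : ℝ) + 1)) + (6 / r - 6 / (r + 1)) := by
    have e0 : (6 : ℝ) / r - 6 / (r + 1) = (6 / r) * (1 / ((r : ℝ) + 1)) := by
      field_simp
      ring
    rw [e0, ← add_mul, mul_one_div, le_div_iff₀ (by positivity)]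
    have e1 : (x + x ^ 2) / 4 * ((r : ℝ) + 1) = z / 4 + (z ^ 2 + z) * (1 / r) / 4 +
        z ^ 2 * (1 / r) * (1 / r) / 4 := by
      rw [← hxr]
      field_simp
      ring
    rw [e1]
    have e3 : z ^ 2 * (1 / (r : ℝ)) * (1 / r) / 4 ≤ z ^ 2 * (1 / r) * (1 / 128) / 4 := by
      have : 0 ≤ z ^ 2 * (1 / (r : ℝ)) := by positivity
      linarith only [mul_le_mul_of_nonneg_left hinv this]
    have e4 : (z ^ 2 + z) / 4 + z ^ 2 / 512 + 1 / 4 ≤ 6 + 0.008125 * r := by
      rw [← hs2]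
      have e5 : z ^ 2 ≤ (3.4015 + s) ^ 2 := pow_le_pow_left₀ hz0.le hz2 2
      nlinarith only [e5, hz2, hs1, sq_nonneg (s - 1.2)]
    have e6 : ((z ^ 2 + z) / 4 + z ^ 2 / 512 + 1 / 4) * (1 / r) ≤ (6 + 0.008125 * r) * (1 / r) :=
      mul_le_mul_of_nonneg_right e4 hinv0.le
    have e7 : (6 + 0.008125 * (r : ℝ)) * (1 / r) = 6 / r + 0.008125 := by
      field_simp
    rw [e7] at e6
    linarith only [e3, e6, hz1]
  unfold Phi
  rw [← hL]
  linarith only [h1, h2, h3, h4]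

/-- the sum from `128` on. -/
theorem sum_u' (d : ℕ) (hd : 128 ≤ d) : ∑ r ∈ Ico 128 d, u r ≤ Phi d - Phi 128 := by
  induction d, hd using Nat.le_induction with
  | base => simp
  | succ d hd ih =>
    rw [Finset.sum_Ico_succ_top (by omega)]
    have h1 := u_step' d hd
    push_cast
    linarith only [h1, ih]

theorem Phi_128 : 35.85 ≤ Phi 128 := by
  have hl2 := Real.log_two_gt_d9
  have h128 : Real.log (128 : ℝ) = 7 * Real.log 2 := by
    rw [show (128 : ℝ) = 2 ^ 7 by norm_num, Real.log_pow]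
    norm_num
  have h2 : 4.852 ≤ Real.log (128 : ℝ) := by linarith only [h128, hl2]
  have h3 : (4.852 : ℝ) ^ 2 ≤ Real.log (128 : ℝ) ^ 2 := pow_le_pow_left₀ (by norm_num) h2 2
  unfold Phi
  norm_num at h3 ⊢
  linarith only [h2, h3]

end Vale.Agent.P018.R2.H803
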